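import Vale.Agent.P146.R3.H729.Seq
import Vale.Agent.P146.R3.H793.Sel
import Vale.Agent.P146.R3.H952.Given
import Vale.Agent.P146.R3.H952.Lap

/-!
# P146, R5: the limit profile near the origin, the growth of `m_k`, the order of the variance
-/

set_option autoImplicit false

open MeasureTheory Filter Topology Set

namespace Vale.Agent.P146.R3.H729

open Vale.Agent.P157.Par
open Vale.Agent.P146.Gap
open Vale.Agent.P146.Pw2
open Vale.Agent.P146.Lb
open Vale.Agent.P146.Sh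
open Vale.Agent.P367.Cl
open Vale.Agent.P146.R3.H952 (ll lam IsVal MinProf HypR HypI HypF)

/-- the bound of the spectral part for the semicircle law -/
def SpecLe (b : ℝ) : Prop := ∀ (k : ℕ) (m q : ℕ → ℝ), Exponents k m → Path k q → q k ≤ 1 →
  P166.specPart 1 (muS b 0 0) k m q ≤
    b ^ 2 / 4 * (1 - ∑ l ∈ Finset.range (k + 1), (m (l + 1) - m l) * q l ^ 2)

/-- the value of the overlap path of a constrained minimiser -/
theorem val_exists {b : ℝ} (hb : 1 < b) (hS : SpecLe b) : ∃ C : ℝ, 1 ≤ C ∧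
    ∀ (n d : ℕ) (r : ℕ → ℝ), 1 ≤ d → d ≤ n → IsMinD b n d r →
      ∃ v : ℝ, IsVal 1 (muS b 0 0) n (gm n) (spR n (gm n) r) v ∧
        v ≤ P0 b + C * gm n d ^ 5 + 2 * b ^ 2 / (n + 1) := by
  obtain ⟨C, hC, h⟩ := near_val hb
  refine ⟨C, hC, fun n d r hd1 hdn hmin => ?_⟩
  obtain ⟨h1, h2, h3⟩ := near_path hmin.1
  have h4 := hS n (gm n) (spR n (gm n) r) (gm_exponents n) h1 h3.le
  have hbd : ∀ x ∈ {x : ℝ | ∃ r' : ℕ → ℝ, Path n r' ∧
      x = P166.Jf 1 (muS b 0 0) n (gm n) (spR n (gm n) r) r'},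
      x ≤ P0 b + C * gm n d ^ 5 + 2 * b ^ 2 / (n + 1) := by
    rintro x ⟨r', hr', rfl⟩
    have h5 := h n d r hd1 hdn hmin r' hr'
    unfold P166.Jf
    linarith only [h4, h5]
  have hne : {x : ℝ | ∃ r' : ℕ → ℝ, Path n r' ∧
      x = P166.Jf 1 (muS b 0 0) n (gm n) (spR n (gm n) r) r'}.Nonempty :=
    ⟨_, fun _ => 0, ⟨le_rfl, fun _ _ => le_rfl⟩, rfl⟩
  exact ⟨_, ⟨gm_exponents n, h1, h2, h3, isLUB_csSup hne ⟨_, fun x hx => hbd x hx⟩⟩,
    csSup_le hne hbd⟩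

/-- `κ²` in terms of the constant of the large deviations -/
noncomputable def kap2 (b A : ℝ) : ℝ := (9 / 80 * b ^ 6 / A) ^ (1 / 3 : ℝ)

lemma kap2_pos {b A : ℝ} (hb : 0 < b) (hA : 0 < A) : 0 < kap2 b A := by
  unfold kap2
  positivity

/-- **The limit profile near the origin.** -/
theorem contact_law {b A : ℝ} (hb : 1 < b) (hA0 : 0 < A) (hS : SpecLe b) (hsel : Sel b A)
    (hR : HypR b) (hI : HypI b) (hF : HypF b) (hp : IsGLB (PV 1 (muS b 0 0)) (P0 b))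
    {x : ℝ → ℝ} (hx : MinProf b x) : ∃ C y₀ : ℝ, 0 < y₀ ∧ ∀ y, 0 ≤ y → y ≤ y₀ →
      |1 - ll b x y - kap2 b A / 4 * y ^ 2| ≤ C * (y ^ 2 * √y) := by
  have hb0 : 0 < b := by linarith
  obtain ⟨c1, C1, hc1, hC1, hlaw⟩ := law hb
  obtain ⟨c2, C2, hc2, hC2, hnear⟩ := near_law hb
  obtain ⟨C3, hC3, hval⟩ := val_exists hb hS
  obtain ⟨c0, K0, hc0, hK0, hbd⟩ := vk_bd b
  obtain ⟨n, d, r, h⟩ := seq_exists hsel (c := min c1 c2) (C := max C1 C2) (by positivity)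
  have hmin : ∀ j, IsMinD b (n j) (d j) (r j) := fun j => (h j).2.2.1
  -- the values
  have hv := fun j => hval (n j) (d j) (r j) (h j).1 (h j).2.1 (hmin j)
  choose v hv1 hv2 using hv
  have hx0 : ∀ j, 0 < gm (n j) (d j) := fun j => grid_gm_pos (h j).1
  have hxj : ∀ j, gm (n j) (d j) ≤ 1 / ((j : ℝ) + 1) := fun j => (h j).2.2.2.2.1
  have hj1 : ∀ j : ℕ, 1 / ((j : ℝ) + 1) ≤ 1 := fun j => by
    rw [div_le_one (by positivity)]
    linarith [(Nat.cast_nonneg j : (0 : ℝ) ≤ j)]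
  have hvlim : Tendsto v atTop (𝓝 (P0 b)) := by
    refine tendsto_of_inv (K := C3 + 2 * b ^ 2) fun j => ?_
    have h1 : P0 b ≤ v j := hp.1 ⟨n j, gm (n j), spR (n j) (gm (n j)) (r j), (hv1 j).1,
      (hv1 j).2.1, (hv1 j).2.2.1, (hv1 j).2.2.2.1, (hv1 j).2.2.2.2⟩
    rw [abs_of_nonneg (by linarith)]
    have h2 : gm (n j) (d j) ^ 5 ≤ 1 / ((j : ℝ) + 1) := by
      have h3 : gm (n j) (d j) ^ 5 ≤ gm (n j) (d j) ^ 1 :=
        pow_le_pow_of_le_one (hx0 j).le ((hxj j).trans (hj1 j)) (by norm_num)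
      rw [pow_one] at h3
      exact h3.trans (hxj j)
    have h4 := (h j).2.2.2.2.2.2.1
    have h5 := hv2 j
    have h6 : C3 * gm (n j) (d j) ^ 5 ≤ C3 * (1 / ((j : ℝ) + 1)) :=
      mul_le_mul_of_nonneg_left h2 (by linarith)
    have h7 : 2 * b ^ 2 / ((n j : ℝ) + 1) ≤ 2 * b ^ 2 * (1 / ((j : ℝ) + 1)) := by
      have e : 2 * b ^ 2 / ((n j : ℝ) + 1) = 2 * b ^ 2 * (1 / ((n j : ℝ) + 1)) := by ring
      rw [e]
      exact mul_le_mul_of_nonneg_left h4 (by positivity)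
    linarith
  -- the constants
  have hxlim : Tendsto (fun j => gm (n j) (d j)) atTop (𝓝 0) := by
    refine tendsto_of_inv (K := 1) fun j => ?_
    rw [sub_zero, abs_of_pos (hx0 j), one_mul]
    exact hxj j
  have hvv : Tendsto (fun j => vv (n j) (r j)) atTop (𝓝 (1 / b)) := by
    refine tendsto_of_inv (K := C1) fun j => ?_
    obtain ⟨h1, -⟩ := hlaw (n j) (d j) (r j) (h j).1 (h j).2.1 (hmin j)
      ((h j).2.2.2.1.trans (min_le_left _ _)) ((le_max_left _ _).trans (h j).2.2.2.2.2.1)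
    refine h1.trans (mul_le_mul_of_nonneg_left ?_ (by linarith))
    have h3 : gm (n j) (d j) ^ 2 ≤ gm (n j) (d j) ^ 1 :=
      pow_le_pow_of_le_one (hx0 j).le ((hxj j).trans (hj1 j)) (by norm_num)
    rw [pow_one] at h3
    exact h3.trans (hxj j)
  have hkk : ∀ j, 0 < kk (n j) (r j) := fun j =>
    hc0.trans_le (hbd (n j) (r j) (hmin j).1).2.2.1
  have hAlim : Tendsto (fun j => 9 / 80 * vv (n j) (r j) ^ 12 / kk (n j) (r j) ^ 6) atTop
      (𝓝 A) := tendsto_of_inv (K := 1) fun j => by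
    rw [one_mul]
    exact (h j).2.2.2.2.2.2.2
  have hκ := lim_kappa hb0 hA0 hkk hvv hAlim
  -- the profiles
  have hl : ∀ y ∈ Icc (0 : ℝ) 1, Tendsto (fun j =>
      min (b * lam (n j) (gm (n j)) (spR (n j) (gm (n j)) (r j)) y) 1) atTop
      (𝓝 (ll b x y)) := by
    intro y hy
    rw [Metric.tendsto_nhds]
    intro ε hε
    filter_upwards [H952.given_seq hb0 hR hI hF (K := n) (m := fun j => gm (n j))
      (q := fun j => spR (n j) (gm (n j)) (r j)) hv1 hp hvlim hx (half_pos hε)] with j hj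
    rw [Real.dist_eq]
    have := hj y hy
    linarith
  have hfin := lim_prof (b := b) (c := c2) (C := C2)
    (lamj := fun j y => lam (n j) (gm (n j)) (spR (n j) (gm (n j)) (r j)) y)
    (κ := fun j => (kk (n j) (r j) * b ^ 3) ^ 2) (x := fun j => gm (n j) (d j))
    (l := ll b x) (fun j => sq_nonneg _) hxlim hκ
    (fun j y hy => hnear (n j) (d j) (r j) (h j).1 (h j).2.1 (hmin j)
      ((h j).2.2.2.1.trans (min_le_right _ _)) ((le_max_right _ _).trans (h j).2.2.2.2.2.1) y hy)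
    hl
  exact ⟨C2, min c2 1, by positivity, hfin⟩

/-- **The growth of `m_k` and of the chaos function**: `m_k² / (k + 1) → π / κ²` and
`(1 - t) K_∞(t) → (π / 2) (80 A / 9)^(1/3)`. -/
theorem growth {b A : ℝ} (hb : 1 < b) (hA0 : 0 < A) (hS : SpecLe b) (hsel : Sel b A)
    (hR : HypR b) (hI : HypI b) (hF : HypF b) (hp : IsGLB (PV 1 (muS b 0 0)) (P0 b))
    {x : ℝ → ℝ} (hx : MinProf b x) :
    (∃ C y₀ : ℝ, 0 < y₀ ∧ ∀ y, 0 ≤ y → y ≤ y₀ →
      |1 - ll b x y - kap2 b A / 4 * y ^ 2| ≤ C * y ^ (5 / 2 : ℝ)) ∧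
    Tendsto (fun k : ℕ => ((k + 1) * ∫ y in (0 : ℝ)..1, ll b x y ^ k) ^ 2 / ((k : ℝ) + 1)) atTop
      (𝓝 (Real.pi / kap2 b A)) ∧
    Tendsto (fun t : ℝ => (1 - t) * (b ^ 2 / 2 * ∑' k : ℕ, t ^ (k + 2) *
      ((((k + 1 : ℕ) : ℝ) + 1) * ∫ y in (0 : ℝ)..1, ll b x y ^ (k + 1)) ^ 2 /
        (((k + 1 : ℕ) : ℝ) + 1))) (𝓝[<] 1)
      (𝓝 (Real.pi / 2 * (80 * A / 9) ^ (1 / 3 : ℝ))) := by
  have hb0 : 0 < b := by linarith
  obtain ⟨C, y₀, hy₀, h⟩ := contact_law hb hA0 hS hsel hR hI hF hp hx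
  have hκ := kap2_pos hb0 hA0
  have hsq : ∀ y : ℝ, 0 ≤ y → y ^ (5 / 2 : ℝ) = y ^ 2 * √y := by
    intro y hy
    rcases hy.eq_or_lt with h0 | h0
    · rw [← h0, Real.zero_rpow (by norm_num)]
      simp
    · rw [Real.sqrt_eq_rpow, ← Real.rpow_natCast, ← Real.rpow_add h0]
      norm_num
  have h' : ∀ y, 0 ≤ y → y ≤ y₀ → |1 - ll b x y - kap2 b A / 4 * y ^ 2| ≤
      C * y ^ (5 / 2 : ℝ) := by
    intro y hy0 hy
    rw [hsq y hy0]
    exact h y hy0 hy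
  have hanti : AntitoneOn (ll b x) (Icc 0 1) := H952.ll_anti hb0 hx.1 hx.2.1
  have h01 : ∀ y ∈ Icc (0 : ℝ) 1, ll b x y ∈ Icc (0 : ℝ) 1 := fun y hy =>
    ⟨H952.ll_nonneg hb0 hx.1 hx.2.1 hy, H952.ll_le_one b x y⟩
  have hlt : ∀ y ∈ Ioc (0 : ℝ) 1, ll b x y < 1 := by
    intro y hy
    obtain ⟨z, hz⟩ : ∃ z : ℝ, z = min y (min y₀ ((kap2 b A / (8 * (|C| + 1))) ^ 2)) := ⟨_, rfl⟩
    have hz0 : 0 < z := by
      rw [hz]
      have := hy.1
      positivity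
    have hz1 : z ≤ y := by rw [hz]; exact min_le_left _ _
    have hz2 : z ≤ y₀ := by rw [hz]; exact (min_le_right _ _).trans (min_le_left _ _)
    have hz3 : z ≤ (kap2 b A / (8 * (|C| + 1))) ^ 2 := by
      rw [hz]; exact (min_le_right _ _).trans (min_le_right _ _)
    have h1 := (abs_le.1 (h z hz0.le hz2)).1
    have h2 : √z ≤ kap2 b A / (8 * (|C| + 1)) := by
      rw [Real.sqrt_le_left (by positivity)]
      exact hz3
    have h3 : (|C| + 1) * √z ≤ kap2 b A / 8 := by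
      have := mul_le_mul_of_nonneg_left h2 (show 0 ≤ |C| + 1 by positivity)
      have e : (|C| + 1) * (kap2 b A / (8 * (|C| + 1))) = kap2 b A / 8 := by
        have : (|C| + 1) ≠ 0 := by positivity
        field_simp
      rwa [e] at this
    have h4 : C * √z ≤ kap2 b A / 8 := by
      refine le_trans (mul_le_mul_of_nonneg_right ?_ (Real.sqrt_nonneg _)) h3
      linarith [le_abs_self C]
    have h5 : C * (z ^ 2 * √z) ≤ kap2 b A / 8 * z ^ 2 := by
      have := mul_le_mul_of_nonneg_right h4 (sq_nonneg z)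
      linarith
    have h6 : 0 < kap2 b A / 8 * z ^ 2 := by positivity
    have h7 : ll b x y ≤ ll b x z := hanti ⟨hz0.le, hz1.trans hy.2⟩ ⟨hy.1.le, hy.2⟩ hz1
    linarith
  refine ⟨⟨C, y₀, hy₀, h'⟩, ?_, ?_⟩
  · have h1 := H952.moments_lim hanti h01 hlt (a := kap2 b A / 4) (by positivity) hy₀ h'
    have e : Real.pi / (4 * (kap2 b A / 4)) = Real.pi / kap2 b A := by
      congr 1
      ring
    rwa [e] at h1
  · have h1 := H952.kinf_lim hanti h01 hlt (a := kap2 b A / 4) (by positivity) hy₀ h' b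
    have e : Real.pi * b ^ 2 / (8 * (kap2 b A / 4)) =
        Real.pi / 2 * (80 * A / 9) ^ (1 / 3 : ℝ) := by
      have e1 : (80 * A / 9) ^ (1 / 3 : ℝ) = b ^ 2 / kap2 b A := by
        have e2 : 80 * A / 9 = (b ^ 2) ^ 3 / (9 / 80 * b ^ 6 / A) := by
          field_simp
        have e3 : ((b ^ 2) ^ 3) ^ (1 / 3 : ℝ) = b ^ 2 := by
          rw [← Real.rpow_natCast (b ^ 2) 3, ← Real.rpow_mul (by positivity)]
          norm_num
        rw [e2, Real.div_rpow (by positivity) (by positivity), e3]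
        rfl
      rw [e1]
      have := hκ.ne'
      field_simp
      ring
    rwa [e] at h1

end Vale.Agent.P146.R3.H729
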