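import Vale.Agent.P146.R3.H729.Val2

set_option linter.all false

/-!
# P146, explicit lower exponent: the equations of the quadratic forms of the resolvent
-/

open MeasureTheory ProbabilityTheory Finset Matrix

namespace Vale.Agent.P146.R3.H729.Eqs

open Vale.Agent.P157 (spin)
open Vale.Agent.P157.Lv Vale.Agent.P157.Lv.Sy
open Vale.Agent.P157.Par (Path Exponents)
open Vale.Agent.P146.Sk Vale.Agent.P146.Sk.Rec
open Vale.Agent.P146.Sk.Gen (GI gz gl r0 gS gF)
open Vale.Agent.P146.Pw2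

/-- **The equations of the quadratic forms.** -/
theorem eqs {β : ℝ} (hβ : 0 ≤ β) : ∃ C : ℝ, 1 ≤ C ∧ ∀ (N K : ℕ) (m : ℕ → ℝ) (y a b : ℝ)
    (s : ℕ → ℝ), 0 < N → Exponents K m → 0 < y → y ≤ 1 → a ∈ Set.Icc (0 : ℝ) 1 →
    b ∈ Set.Icc (0 : ℝ) 1 → (∀ l ≤ K, 0 ≤ s l) →
    Sk.hN K m ((zt N y).re • TQ (sy N K m β y a b s) (ZA N K y) +
        (zt N y).im • TQ (sy N K m β y a b s) (ZB N K y) -
        (1, fun l => (sy N K m β y a b s).Rl spin l) -
        (β * a) • hm K m (1, fun l => (sy N K m β y a b s).Rl spin l)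
          (TQ (sy N K m β y a b s) (ZA N K y))) ≤
      C * (√(Tb y (sy N K m β y a b s) / y) * (√(Vd m (sy N K m β y a b s)) +
        b / y * √(Tb y (sy N K m β y a b s) / y)) + 1 / (N * y ^ 4)) ∧
    Sk.hN K m ((zt N y).im • TQ (sy N K m β y a b s) (ZA N K y) -
        (zt N y).re • TQ (sy N K m β y a b s) (ZB N K y) +
        (β * a) • hm K m (1, fun l => (sy N K m β y a b s).Rl spin l)
          (TQ (sy N K m β y a b s) (ZB N K y))) ≤
      C * (√(Tb y (sy N K m β y a b s) / y) * (√(Vd m (sy N K m β y a b s)) +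
        b / y * √(Tb y (sy N K m β y a b s) / y)) + 1 / (N * y ^ 4)) := by
  refine ⟨36 * β + 16, by linarith only [hβ], fun N K m y a b s hN hm' hy hy1 ha hb hs => ?_⟩
  have hN' : (0 : ℝ) < N := by exact_mod_cast hN
  obtain ⟨TA, TB, -, e2, e3, rfl, rfl⟩ := Val2.resid_J (s := s) hβ hN hm' hy hy1 ha hb.1 hs
  have hJ0 : 0 ≤ Tb y (sy N K m β y a b s) := (tb_bounds β hy hN hm' a b s).1
  obtain ⟨J, hJ⟩ : ∃ J : ℝ, J = Tb y (sy N K m β y a b s) := ⟨_, rfl⟩
  obtain ⟨V, hV⟩ : ∃ V : ℝ, V = Vd m (sy N K m β y a b s) := ⟨_, rfl⟩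
  rw [← hJ, ← hV] at e2 e3
  rw [← hJ] at hJ0
  rw [← hJ, ← hV]
  have h1 : √(J / y * V) = √(J / y) * √V := Real.sqrt_mul (by positivity) _
  have h2 : b * (J / y ^ 2) = √(J / y) * (b / y * √(J / y)) := by
    have h3 := Real.mul_self_sqrt (show 0 ≤ J / y by positivity)
    calc b * (J / y ^ 2) = b / y * (J / y) := by
          field_simp
      _ = b / y * (√(J / y) * √(J / y)) := by rw [h3]
      _ = _ := by ring
  have hb0 := hb.1
  have hle : 18 * (β * √(J / y * V) + 2 * β * b * (J / y ^ 2)) + 16 / (N * y ^ 4) ≤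
      (36 * β + 16) * (√(J / y) * (√V + b / y * √(J / y)) + 1 / (N * y ^ 4)) := by
    have g1 : 0 ≤ √(J / y) * √V := by positivity
    have g2 : 0 ≤ √(J / y) * (b / y * √(J / y)) := by positivity
    have g3 : 0 ≤ 1 / ((N : ℝ) * y ^ 4) := by positivity
    have g4 : (16 : ℝ) / (N * y ^ 4) = 16 * (1 / (N * y ^ 4)) := by ring
    have g5 : 2 * β * b * (J / y ^ 2) = 2 * β * (√(J / y) * (b / y * √(J / y))) := by
      rw [← h2]
      ring
    rw [g4, g5, h1]
    have k1 := mul_nonneg hβ g1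
    have k2 := mul_nonneg hβ g2
    have k3 := mul_nonneg hβ g3
    linarith only [g1, g2, g3, k1, k2, k3]
  exact ⟨e2.trans hle, e3.trans hle⟩

end Vale.Agent.P146.R3.H729.Eqs
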