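import Mathlib

/-!
# P146, R5: real lemmas along a path
-/

set_option autoImplicit false

open Filter Topology Set

namespace Vale.Agent.P146.R3.H729

/-- one block -/
lemma track_one {f : ℝ → ℝ} {T B : ℝ} (hc : ContinuousOn f (Icc 0 T))
    (hd : ∀ t ∈ Ioo 0 T, ∃ d, HasDerivAt f d t ∧ d ≤ B) {t : ℝ} (ht : t ∈ Icc 0 T) :
    f t ≤ f 0 + B * t := by
  rcases ht.1.eq_or_lt with h0 | h0
  · rw [← h0]
    simp
  · have hd' : ∀ s ∈ Ioo 0 t, HasDerivAt f (deriv f s) s ∧ deriv f s ≤ B := fun s hs => by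
      obtain ⟨d, h1, h2⟩ := hd s ⟨hs.1, hs.2.trans_le ht.2⟩
      rw [h1.deriv]
      exact ⟨h1, h2⟩
    obtain ⟨c, hcm, hce⟩ := exists_hasDerivAt_eq_slope f (deriv f) h0
      (hc.mono (Icc_subset_Icc le_rfl ht.2)) (fun s hs => (hd' s hs).1)
    have h3 := (hd' c hcm).2
    rw [hce, sub_zero, div_le_iff₀ h0] at h3
    linarith

/-- an upper bound of the derivative on all the blocks, integrated along the path -/
lemma track_up {n l₀ : ℕ} {r : ℕ → ℝ} {g : ℕ → ℝ → ℝ} {B U : ℝ}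
    (hr : ∀ l, l₀ ≤ l → l < n → r l ≤ r (l + 1))
    (hc : ∀ l, l₀ ≤ l → l < n → ContinuousOn (g l) (Icc 0 (r (l + 1) - r l)))
    (hj : ∀ l, l₀ ≤ l → l + 1 < n → g l (r (l + 1) - r l) = g (l + 1) 0)
    (hd : ∀ l, l₀ ≤ l → l < n → ∀ t ∈ Ioo 0 (r (l + 1) - r l), r l + t < U →
      ∃ d, HasDerivAt (g l) d t ∧ d ≤ B) :
    ∀ l, l₀ ≤ l → l < n → ∀ t ∈ Icc 0 (r (l + 1) - r l), r l + t ≤ U →
      g l t ≤ g l₀ 0 + B * (r l + t - r l₀) := by
  have key : ∀ l, l₀ ≤ l → l < n → ∀ t ∈ Icc 0 (r (l + 1) - r l), r l + t ≤ U →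
      g l t ≤ g l 0 + B * t := fun l h1 h2 t ht hU =>
    track_one ((hc l h1 h2).mono (Icc_subset_Icc le_rfl ht.2)) (fun s hs =>
      hd l h1 h2 s ⟨hs.1, hs.2.trans_le ht.2⟩ (by linarith [hs.2])) ⟨ht.1, le_rfl⟩
  intro l hl
  induction l, hl using Nat.le_induction with
  | base =>
    intro h2 t ht hU
    have := key l₀ le_rfl h2 t ht hU
    have e : r l₀ + t - r l₀ = t := by ring
    rw [e]
    exact this
  | succ l hl ih =>
    intro h2 t ht hU
    have hl' : l < n := by omega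
    have hrl := hr l hl hl'
    have h3 := ih hl' (r (l + 1) - r l) ⟨by linarith, le_rfl⟩ (by linarith [ht.1])
    rw [hj l hl h2] at h3
    have h4 := key (l + 1) (by omega) h2 t ht hU
    nlinarith [h3, h4]

/-- the block which contains a given time -/
lemma block_of {n l₀ : ℕ} {r : ℕ → ℝ} {U : ℝ} (hl : l₀ < n) (h0 : r l₀ ≤ U) (h1 : U ≤ r n) :
    ∃ l, l₀ ≤ l ∧ l < n ∧ U ∈ Icc (r l) (r (l + 1)) := by
  by_contra hcon
  push Not at hcon
  have key : ∀ l, l₀ ≤ l → l ≤ n → r l ≤ U := by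
    intro l hl1
    induction l, hl1 using Nat.le_induction with
    | base => exact fun _ => h0
    | succ l hl1 ih =>
      intro h2
      have h3 := ih (by omega)
      by_contra h4
      push Not at h4
      exact hcon l hl1 (by omega) ⟨h3, h4.le⟩
  obtain ⟨k, rfl⟩ : ∃ k, n = k + 1 := ⟨n - 1, by omega⟩
  exact hcon k (by omega) (by omega) ⟨key k (by omega) (by omega), h1⟩

/-- `∫_0^u x`, `x` the distribution function of the path `r` with the weights `1/(n+1)` -/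
noncomputable def SS (n : ℕ) (r : ℕ → ℝ) (u : ℝ) : ℝ :=
  ∑ j ∈ Finset.range (n + 1), 1 / ((n : ℝ) + 1) * max (u - r j) 0

lemma SS_nonneg (n : ℕ) (r : ℕ → ℝ) (u : ℝ) : 0 ≤ SS n r u :=
  Finset.sum_nonneg fun j _ => mul_nonneg (by positivity) (le_max_right _ _)

lemma SS_mono (n : ℕ) (r : ℕ → ℝ) {u v : ℝ} (h : u ≤ v) : SS n r u ≤ SS n r v := by
  unfold SS
  refine Finset.sum_le_sum fun j _ => mul_le_mul_of_nonneg_left ?_ (by positivity)
  exact max_le_max (by linarith) le_rfl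

lemma SS_le {n : ℕ} {r : ℕ → ℝ} (hr : ∀ j ≤ n, 0 ≤ r j) {u : ℝ} (hu : 0 ≤ u) : SS n r u ≤ u := by
  unfold SS
  have h1 : ∑ j ∈ Finset.range (n + 1), 1 / ((n : ℝ) + 1) * max (u - r j) 0 ≤
      ∑ _j ∈ Finset.range (n + 1), 1 / ((n : ℝ) + 1) * u := by
    refine Finset.sum_le_sum fun j hj => mul_le_mul_of_nonneg_left ?_ (by positivity)
    refine max_le ?_ hu
    linarith [hr j (by rw [Finset.mem_range] at hj; omega)]
  refine h1.trans_eq ?_
  rw [Finset.sum_const, Finset.card_range, nsmul_eq_mul]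
  push_cast
  field_simp

lemma SS_zero {n : ℕ} {r : ℕ → ℝ} (hr : ∀ j ≤ n, 0 ≤ r j) : SS n r 0 = 0 :=
  le_antisymm (SS_le hr le_rfl) (SS_nonneg _ _ _)

/-- the first block -/
lemma SS_first {n d : ℕ} {r : ℕ → ℝ} (hd : d ≤ n) (h0 : ∀ l < d, r l = 0)
    (hm : ∀ l, d ≤ l → l ≤ n → r d ≤ r l) :
    SS n r (r d) ≤ (d : ℝ) / ((n : ℝ) + 1) * max (r d) 0 := by
  unfold SS
  have h1 : ∀ j ∈ Finset.range (n + 1), 1 / ((n : ℝ) + 1) * max (r d - r j) 0 ≤
      if j < d then 1 / ((n : ℝ) + 1) * max (r d) 0 else 0 := by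
    intro j hj
    rw [Finset.mem_range] at hj
    split_ifs with h
    · rw [h0 j h, sub_zero]
    · have := hm j (not_lt.1 h) (by omega)
      rw [max_eq_right (by linarith), mul_zero]
  refine (Finset.sum_le_sum h1).trans_eq ?_
  rw [← Finset.sum_filter]
  have e : (Finset.range (n + 1)).filter (fun j => j < d) = Finset.range d := by
    ext j
    simp only [Finset.mem_filter, Finset.mem_range]
    omega
  rw [e, Finset.sum_const, Finset.card_range, nsmul_eq_mul]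
  ring

/-- the derivative inside a block -/
lemma SS_deriv {n l : ℕ} {r : ℕ → ℝ} (hl : l < n) (hlow : ∀ j ≤ l, r j ≤ r l)
    (hup : ∀ j, l + 1 ≤ j → j ≤ n → r (l + 1) ≤ r j) {t : ℝ} (ht : t ∈ Ioo 0 (r (l + 1) - r l)) :
    HasDerivAt (fun t => SS n r (r l + t)) (((l : ℝ) + 1) / ((n : ℝ) + 1)) t := by
  have hev : (fun t => SS n r (r l + t)) =ᶠ[𝓝 t] fun t =>
      ∑ j ∈ Finset.range (l + 1), 1 / ((n : ℝ) + 1) * (r l + t - r j) := by
    filter_upwards [Ioo_mem_nhds ht.1 ht.2] with s hs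
    unfold SS
    rw [← Finset.sum_subset (Finset.range_mono (show l + 1 ≤ n + 1 by omega))]
    · refine Finset.sum_congr rfl fun j hj => ?_
      rw [Finset.mem_range] at hj
      have := hlow j (by omega)
      rw [max_eq_left (by linarith [hs.1])]
    · intro j hj hj2
      rw [Finset.mem_range] at hj hj2
      have := hup j (by omega) (by omega)
      rw [max_eq_right (by linarith [hs.2]), mul_zero]
  refine HasDerivAt.congr_of_eventuallyEq ?_ hev
  have h1 : HasDerivAt (fun t => ∑ j ∈ Finset.range (l + 1), 1 / ((n : ℝ) + 1) * (r l + t - r j))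
      (∑ _j ∈ Finset.range (l + 1), 1 / ((n : ℝ) + 1) * 1) t := by
    refine HasDerivAt.fun_sum fun j _ => HasDerivAt.const_mul _ ?_
    exact ((hasDerivAt_id t).const_add (r l)).sub_const (r j)
  refine h1.congr_deriv ?_
  rw [Finset.sum_const, Finset.card_range, nsmul_eq_mul]
  push_cast
  ring

lemma SS_cont (n : ℕ) (r : ℕ → ℝ) : Continuous (SS n r) := by
  unfold SS
  fun_prop

end Vale.Agent.P146.R3.H729
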