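import Vale.Agent.P146.Bd4.B5
import Vale.Agent.P146.R3.H729.Track

/-!
# P146, R5: the law of the minimisers near the origin
-/

set_option autoImplicit false

open Filter Topology Set

namespace Vale.Agent.P146.R3.H729

open Vale.Agent.P157.Par
open Vale.Agent.P146.Gap
open Vale.Agent.P146.Pw2
open Vale.Agent.P146.Lb
open Vale.Agent.P146.Sh
open Vale.Agent.P367.Cl

lemma law1_num {c0 K0 κ m x rl A B β : ℝ} (hc0 : 0 < c0) (hκ0 : 0 < κ) (hκ3 : K0 * κ ≤ c0 / 2)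
    (hm0 : 0 < m) (hx0 : 0 < x) (hx1 : x ≤ 1) (hxm : x ≤ m) (hxκ : x ≤ c0 * κ / 16)
    (hrl : rl < κ * m / 2) (h1 : β - x ^ 8 ≤ A) (h2 : B ≤ β + x ^ 8)
    (htr : A ≤ B + (K0 * (κ * m) - c0 * m) * (κ * m - rl)) : False := by
  have h3 : (c0 * m / 2) * (κ * m / 2) ≤ 2 * x ^ 8 := by
    have h4 : c0 * m / 2 ≤ c0 * m - K0 * (κ * m) := by
      have := mul_le_mul_of_nonneg_right hκ3 hm0.le
      linarith only [this]
    have h5 : κ * m / 2 ≤ κ * m - rl := by linarith only [hrl]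
    have h6 : (c0 * m / 2) * (κ * m / 2) ≤ (c0 * m - K0 * (κ * m)) * (κ * m - rl) :=
      mul_le_mul h4 h5 (by positivity) (by linarith only [h4, show 0 < c0 * m / 2 by positivity])
    linarith only [h6, h1, h2, htr]
  have h7 : x ^ 2 ≤ m ^ 2 := pow_le_pow_left₀ hx0.le hxm 2
  have h8 : x ^ 8 ≤ x ^ 2 * x := by
    have : x ^ 8 = x ^ 2 * x * x ^ 5 := by ring
    rw [this]
    exact mul_le_of_le_one_right (by positivity) (pow_le_one₀ hx0.le hx1)
  have h9 : c0 * κ / 4 * x ^ 2 ≤ 2 * (x ^ 2 * x) := by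
    have : c0 * κ / 4 * x ^ 2 ≤ c0 * κ / 4 * m ^ 2 := mul_le_mul_of_nonneg_left h7 (by positivity)
    linarith only [this, h3, h8]
  have h10 : c0 * κ / 4 ≤ 2 * x := by
    have : 0 < x ^ 2 := by positivity
    refine le_of_mul_le_mul_right ?_ this
    linarith only [h9]
  have : 0 < c0 * κ := by positivity
  linarith only [this, h10, hxκ]

/-- (B1) the exponents are at most linear in the time -/
theorem law1 {b : ℝ} (hb : 1 < b) : ∃ c C K : ℝ, 0 < c ∧ 1 ≤ C ∧ 1 ≤ K ∧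
    ∀ (n d : ℕ) (r : ℕ → ℝ), 1 ≤ d → d ≤ n → IsMinD b n d r → gm n d ≤ c →
      C ≤ gm n d ^ 40 * (n + 1) → ∀ l, d ≤ l → l < n → gm n (l + 1) ≤ K * r l := by
  obtain ⟨c0, K0, hc0, hK0, hdec⟩ := decD b
  obtain ⟨cl, hcl, hlast⟩ := lastD hb
  obtain ⟨cA, CA, hcA, hCA, hA⟩ := lawA hb
  obtain ⟨κ, hκ⟩ : ∃ κ : ℝ, κ = min (c0 / (2 * K0)) cl := ⟨_, rfl⟩
  have hκ0 : 0 < κ := by rw [hκ]; positivity
  have hκ1 : κ ≤ c0 / (2 * K0) := by rw [hκ]; exact min_le_left _ _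
  have hκ2 : κ ≤ cl := by rw [hκ]; exact min_le_right _ _
  have hκ3 : K0 * κ ≤ c0 / 2 := by
    calc K0 * κ ≤ K0 * (c0 / (2 * K0)) := mul_le_mul_of_nonneg_left hκ1 (by linarith)
      _ = c0 / 2 := by field_simp
  have hκ4 : κ ≤ c0 := by
    have : 1 * κ ≤ K0 * κ := mul_le_mul_of_nonneg_right hK0 hκ0.le
    linarith only [this, hκ3, hc0]
  refine ⟨min (min cA 1) (c0 * κ / 16), max CA (1 / cl), max 1 (2 / κ), by positivity,
    hCA.trans (le_max_left _ _), le_max_left _ _, ?_⟩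
  intro n d r hd1 hdn hmin hx hbig l hl hln
  simp only [le_min_iff] at hx
  obtain ⟨⟨hxA, hx1⟩, hxκ⟩ := hx
  rw [max_le_iff] at hbig
  obtain ⟨hbA, hbl⟩ := hbig
  obtain ⟨-, -, -, hMb⟩ := hA n d r hd1 hdn hmin hxA hbA
  have hx0 : 0 < gm n d := grid_gm_pos hd1
  have hn0 : (0 : ℝ) < (n : ℝ) + 1 := by positivity
  have hrn : cl ≤ r n := by
    refine hlast n d r hd1 hdn hmin ?_
    have h1 : gm n d ^ 40 * ((n : ℝ) + 1) ≤ 1 * ((n : ℝ) + 1) :=
      mul_le_mul_of_nonneg_right (pow_le_one₀ hx0.le hx1) hn0.le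
    have h2 : 1 / cl ≤ (n : ℝ) + 1 := by linarith only [hbl, h1]
    rw [div_le_iff₀ hcl] at h2
    linarith only [h2]
  have hr := hmin.1
  have hm := gm_exponents n
  by_contra hcon
  push Not at hcon
  have hm0 : 0 < gm n (l + 1) := grid_gm_pos (by omega)
  have hm1 : gm n (l + 1) ≤ 1 := by
    rw [← grid_gm_top n]
    exact grid_gm_mono (by omega)
  have hxm : gm n d ≤ gm n (l + 1) := grid_gm_mono (by omega)
  have hrl0 : 0 ≤ r l := len_nonneg hr hln.le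
  have hrl : r l < κ * gm n (l + 1) / 2 := by
    have h1 : 2 / κ * r l ≤ max 1 (2 / κ) * r l :=
      mul_le_mul_of_nonneg_right (le_max_right _ _) hrl0
    have h2 : 2 / κ * r l < gm n (l + 1) := h1.trans_lt hcon
    have h3 : r l = κ / 2 * (2 / κ * r l) := by field_simp
    rw [h3]
    have := mul_lt_mul_of_pos_left h2 (show 0 < κ / 2 by positivity)
    linarith only [this]
  obtain ⟨U, hU⟩ : ∃ U, U = κ * gm n (l + 1) := ⟨_, rfl⟩
  have hU0 : 0 < U := by rw [hU]; positivity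
  have hUκ : U ≤ κ := by
    rw [hU]
    exact mul_le_of_le_one_right hκ0.le hm1
  obtain ⟨l', hl', hl'n, hUb⟩ := block_of (U := U) hln (by linarith only [hrl, hU, hU0])
    (by linarith only [hUκ, hκ2, hrn])
  have htr := track_up (n := n) (l₀ := l) (r := r) (g := Mb n (gm n) r)
    (B := K0 * U - c0 * gm n (l + 1))
    (U := U) (fun i h1 h2 => hr.2.1.2 i h2) (fun i h1 h2 => Mb_cont hm hr.2.1 h2)
    (fun i h1 h2 => by rw [Mb_last hm hr.2.1 (by omega), Mb_zero hm hr.2.1 h2])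
    (fun i h1 h2 t ht htU => ⟨_, Mb_deriv hm hr.2.1 h2 ht, by
      have h3 := hdec n r hr i h2 t ⟨ht.1.le, ht.2.le⟩ (by linarith only [htU, hUκ, hκ4])
      have h4 : gm n (l + 1) ≤ gm n (i + 1) := grid_gm_mono (by omega)
      have h5 : K0 * (r i + t) ≤ K0 * U := mul_le_mul_of_nonneg_left htU.le (by linarith only [hK0])
      have h6 : c0 * gm n (l + 1) ≤ c0 * gm n (i + 1) := mul_le_mul_of_nonneg_left h4 hc0.le
      linarith only [h3, h5, h6]⟩) l' hl' hl'n (U - r l')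
    ⟨by linarith only [hUb.1], by linarith only [hUb.2]⟩ (by linarith only)
  have h1 := abs_le.1 (hMb l' (by omega) hl'n (U - r l')
    ⟨by linarith only [hUb.1], by linarith only [hUb.2]⟩)
  have h2 := abs_le.1 (hMb l hl hln 0 ⟨le_rfl, by linarith only [hr.2.1.2 l hln]⟩)
  have e : r l' + (U - r l') - r l = κ * gm n (l + 1) - r l := by
    rw [hU]
    ring
  rw [e, hU] at htr
  rw [hU] at h1
  exact law1_num (β := 1 / b ^ 2) hc0 hκ0 hκ3 hm0 hx0 hx1 hxm hxκ hrl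
    (by linarith only [h1.1]) (by linarith only [h2.2]) htr

/-- the difference with the model -/
noncomputable def Gd (n : ℕ) (r : ℕ → ℝ) (l : ℕ) (t : ℝ) : ℝ :=
  Mb n (gm n) r l t - vv n r ^ 2 -
    (kk n r ^ 2 * (r l + t) ^ 2 / 2 - 2 * vv n r ^ 3 * SS n r (r l + t))

lemma Gd_deriv {b : ℝ} {n : ℕ} {r : ℕ → ℝ} (hr : BPath b n r) {l : ℕ} (hl : l < n) {t : ℝ}
    (ht : t ∈ Ioo 0 (r (l + 1) - r l)) : HasDerivAt (Gd n r l)
      (M1b n (gm n) r l t - (kk n r ^ 2 * (r l + t) - 2 * gm n (l + 1) * vv n r ^ 3)) t := by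
  have hm := gm_exponents n
  have hmono : ∀ i j, i ≤ j → j ≤ n → r i ≤ r j := fun i j h1 h2 => len_mono hr h1 h2
  have h1 := Mb_deriv hm hr.2.1 hl ht
  have h2 := SS_deriv hl (fun j hj => hmono j l hj hl.le)
    (fun j hj hjn => hmono (l + 1) j hj hjn) ht
  have h3 : HasDerivAt (fun t : ℝ => kk n r ^ 2 * (r l + t) ^ 2 / 2)
      (kk n r ^ 2 * (r l + t)) t := by
    have := ((((hasDerivAt_id t).const_add (r l)).pow 2).const_mul (kk n r ^ 2)).div_const 2
    refine this.congr_deriv ?_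
    simp
    ring
  have h4 := (h1.sub_const (vv n r ^ 2)).sub (h3.sub (h2.const_mul (2 * vv n r ^ 3)))
  refine h4.congr_deriv ?_
  unfold gm
  push_cast
  ring

lemma Gd_cont {b : ℝ} {n : ℕ} {r : ℕ → ℝ} (hr : BPath b n r) {l : ℕ} (hl : l < n) :
    ContinuousOn (Gd n r l) (Icc 0 (r (l + 1) - r l)) := by
  have h1 := Mb_cont (gm_exponents n) hr.2.1 hl
  have h2 : Continuous fun t => SS n r (r l + t) :=
    (SS_cont n r).comp (continuous_const.add continuous_id)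
  have h3 : Continuous fun t : ℝ => kk n r ^ 2 * (r l + t) ^ 2 / 2 := by fun_prop
  exact (h1.sub continuousOn_const).sub (h3.sub (continuous_const.mul h2)).continuousOn

lemma Gd_join {b : ℝ} {n : ℕ} {r : ℕ → ℝ} (hr : BPath b n r) {l : ℕ} (hl : l + 1 < n) :
    Gd n r l (r (l + 1) - r l) = Gd n r (l + 1) 0 := by
  have hm := gm_exponents n
  unfold Gd
  rw [Mb_last hm hr.2.1 (by omega), Mb_zero hm hr.2.1 hl]
  have e : r l + (r (l + 1) - r l) = r (l + 1) + 0 := by ring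
  rw [e]

lemma Gd_zero {b : ℝ} {n : ℕ} {r : ℕ → ℝ} (hr : BPath b n r) (hn : 0 < n) :
    Gd n r 0 0 = 0 := by
  have hm := gm_exponents n
  have hSS0 : SS n r (r 0 + 0) = 0 := by
    rw [hr.1, add_zero]
    exact SS_zero fun j hj => len_nonneg hr hj
  unfold Gd
  rw [hSS0, Mb_zero hm hr.2.1 hn, Ml_zero hr.1, hr.1]
  unfold vv
  rw [fl_zero]
  ring

/-- (B2) the integrated law -/
theorem law2 (b : ℝ) : ∃ C : ℝ, 1 ≤ C ∧ ∀ (n : ℕ) (r : ℕ → ℝ) (X : ℝ), BPath b n r → 0 < X →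
    X ≤ 1 → ∀ U, U ≤ X → (∀ l < n, r l < U → gm n (l + 1) ≤ X) →
      ∀ l < n, ∀ t ∈ Icc 0 (r (l + 1) - r l), r l + t ≤ U →
        |Gd n r l t| ≤ C * (X * √X) * (r l + t) := by
  obtain ⟨C, hC, hm1e⟩ := m1e b
  refine ⟨C, hC, fun n r X hr hX hX1 U hU hgm l hl t ht htU => ?_⟩
  have hbd : ∀ i < n, ∀ s ∈ Ioo 0 (r (i + 1) - r i), r i + s < U →
      |M1b n (gm n) r i s - (kk n r ^ 2 * (r i + s) - 2 * gm n (i + 1) * vv n r ^ 3)| ≤
        C * (X * √X) := fun i hi s hs hsU =>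
    hm1e n X r hr hX hX1 i hi (hgm i hi (by linarith only [hs.1, hsU])) s ⟨hs.1.le, hs.2.le⟩
      (by linarith only [hsU, hU])
  have t1 := track_up (n := n) (l₀ := 0) (r := r) (g := Gd n r)
    (B := C * (X * √X)) (U := U) (fun i _ h2 => hr.2.1.2 i h2) (fun i _ h2 => Gd_cont hr h2)
    (fun i _ h2 => Gd_join hr h2)
    (fun i _ h2 s hs hsU => ⟨_, Gd_deriv hr h2 hs, (abs_le.1 (hbd i h2 s hs hsU)).2⟩)
    l (Nat.zero_le _) hl t ht htU
  have t2 := track_up (n := n) (l₀ := 0) (r := r) (g := fun l t => -Gd n r l t)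
    (B := C * (X * √X)) (U := U) (fun i _ h2 => hr.2.1.2 i h2) (fun i _ h2 => (Gd_cont hr h2).neg)
    (fun i _ h2 => by
      have := Gd_join hr h2
      linarith only [this])
    (fun i _ h2 s hs hsU => ⟨_, (Gd_deriv hr h2 hs).neg, by
      linarith only [(abs_le.1 (hbd i h2 s hs hsU)).1]⟩)
    l (Nat.zero_le _) hl t ht htU
  have h0 := Gd_zero hr (show 0 < n by omega)
  have t2' : -Gd n r l t ≤ -Gd n r 0 0 + C * (X * √X) * (r l + t - r 0) := t2
  rw [h0, hr.1] at t1 t2'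
  rw [abs_le]
  constructor <;> linarith only [t1, t2']

lemma law_pow {K u x : ℝ} (hK : 1 ≤ K) (hu : 0 ≤ u) (hx1 : x ≤ 1) :
    (K * max u x) * √(K * max u x) * u ≤ K ^ 2 * (x ^ 2 + u ^ 2 * √u) := by
  set M := max u x with hM
  have hM0 : 0 ≤ M := hu.trans (le_max_left _ _)
  have hK0 : 0 ≤ K := by linarith
  have h1 : √(K * M) ≤ K * √M := by
    rw [Real.sqrt_mul hK0]
    refine mul_le_mul_of_nonneg_right ?_ (Real.sqrt_nonneg _)
    rw [Real.sqrt_le_left hK0]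
    nlinarith
  have h2 : (K * M) * √(K * M) * u ≤ (K * M) * (K * √M) * M := by
    refine mul_le_mul (mul_le_mul_of_nonneg_left h1 (by positivity)) (le_max_left _ _) hu
      (by positivity)
  refine h2.trans ?_
  have h3 : (K * M) * (K * √M) * M = K ^ 2 * (M ^ 2 * √M) := by ring
  rw [h3]
  refine mul_le_mul_of_nonneg_left ?_ (by positivity)
  rcases le_total u x with h | h
  · have e : M = x := max_eq_right h
    rw [e]
    have h4 : √x ≤ 1 := Real.sqrt_le_one.2 hx1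
    have h5 : x ^ 2 * √x ≤ x ^ 2 := mul_le_of_le_one_right (by positivity) h4
    have h6 : 0 ≤ u ^ 2 * √u := by positivity
    linarith
  · have e : M = u := max_eq_left h
    rw [e]
    have := sq_nonneg x
    linarith

end Vale.Agent.P146.R3.H729
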