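import Vale.Agent.P146.R3.H729.Law

/-!
# P146, R5: the law of the minimisers near the origin, final form
-/

set_option autoImplicit false

open Filter Topology Set

namespace Vale.Agent.P146.R3.H729

open Vale.Agent.P157.Par
open Vale.Agent.P146.Gap
open Vale.Agent.P146.Pw2
open Vale.Agent.P146.Lb
open Vale.Agent.P146.Sh
open Vale.Agent.P367.Cl

/-- the facts of one minimiser -/
structure Fct (b c K K0 CA C2 : ℝ) (n d : ℕ) (r : ℕ → ℝ) (x : ℝ) : Prop where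
  path : BPath b n r
  gm : gm n d = x
  x0 : 0 < x
  dn : d < n
  K1 : 1 ≤ K
  CA1 : 1 ≤ CA
  C21 : 1 ≤ C2
  xK : K * CA * x ≤ 1
  rd0 : 0 ≤ r d
  rd : r d ≤ CA * x
  last : c ≤ r n
  zero : ∀ l < d, r l = 0
  lin : ∀ l, d ≤ l → l < n → Pw2.gm n (l + 1) ≤ K * r l
  v0 : 0 < vv n r
  v1 : vv n r ≤ 1
  k0 : 0 < kk n r
  k1 : kk n r ≤ K0
  Mb : ∀ l, d ≤ l → l < n → ∀ t ∈ Icc 0 (r (l + 1) - r l),
    |Mb n (Pw2.gm n) r l t - 1 / b ^ 2| ≤ x ^ 8
  law : ∀ X, 0 < X → X ≤ 1 → ∀ U, U ≤ X → (∀ l < n, r l < U → Pw2.gm n (l + 1) ≤ X) →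
      ∀ l < n, ∀ t ∈ Icc 0 (r (l + 1) - r l), r l + t ≤ U →
        |Gd n r l t| ≤ C2 * (X * √X) * (r l + t)

theorem fct {b : ℝ} (hb : 1 < b) : ∃ c C K K0 CA C2 : ℝ, 0 < c ∧ 1 ≤ C ∧ 0 ≤ K0 ∧ 1 ≤ K ∧
    1 ≤ CA ∧ 1 ≤ C2 ∧ ∀ (n d : ℕ) (r : ℕ → ℝ), 1 ≤ d → d ≤ n → IsMinD b n d r → gm n d ≤ c →
      C ≤ gm n d ^ 40 * (n + 1) → Fct b c K K0 CA C2 n d r (gm n d) := by
  obtain ⟨c1, C1, K, hc1, hC1, hK, h1⟩ := law1 hb
  obtain ⟨C2, hC2, h2⟩ := law2 b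
  obtain ⟨cA, CA, hcA, hCA, hA⟩ := lawA hb
  obtain ⟨c0, K0, hc0, hK0, hbd⟩ := vk_bd b
  obtain ⟨cl, hcl, hlast⟩ := lastD hb
  refine ⟨min (min c1 cA) (min cl (1 / (K * CA))), max (max C1 CA) (1 / cl), K, K0, CA, C2,
    by positivity, (hCA.trans (le_max_right _ _)).trans (le_max_left _ _), by linarith, hK, hCA,
    hC2, ?_⟩
  intro n d r hd1 hdn hmin hx hbig
  simp only [le_min_iff] at hx
  simp only [max_le_iff] at hbig
  obtain ⟨⟨hx1c, hxA⟩, hxl, hxK⟩ := hx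
  obtain ⟨⟨hb1, hbA⟩, hbl⟩ := hbig
  have hlin := h1 n d r hd1 hdn hmin hx1c hb1
  obtain ⟨hrd1, hrd2, hrd3, hMb⟩ := hA n d r hd1 hdn hmin hxA hbA
  have hx0 : 0 < gm n d := grid_gm_pos hd1
  have hKCA : 1 ≤ K * CA := by nlinarith only [hK, hCA]
  have hxKC : K * CA * gm n d ≤ 1 := by
    rw [le_div_iff₀ (by positivity)] at hxK
    linarith only [hxK]
  have hx1 : gm n d ≤ 1 := by nlinarith only [hKCA, hxKC, hx0]
  have hn0 : (0 : ℝ) < (n : ℝ) + 1 := by positivity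
  have hrn : cl ≤ r n := by
    refine hlast n d r hd1 hdn hmin ?_
    have h3 : gm n d ^ 40 * ((n : ℝ) + 1) ≤ 1 * ((n : ℝ) + 1) :=
      mul_le_mul_of_nonneg_right (pow_le_one₀ hx0.le hx1) hn0.le
    have h4 : 1 / cl ≤ (n : ℝ) + 1 := by linarith only [hbl, h3]
    rw [div_le_iff₀ hcl] at h4
    linarith only [h4]
  have hr := hmin.1
  have hdn' : d < n := by
    rcases hdn.lt_or_eq with h | h
    · exact h
    · exfalso
      have e : r d = r n := by rw [h]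
      have h3 : 0 < CA * gm n d := by positivity
      rw [← e] at hrd3
      linarith only [hrd3, hrd2, h3]
  obtain ⟨hv0, hv1, hk0, hk1⟩ := hbd n r hr
  exact ⟨hr, rfl, hx0, hdn', hK, hCA, hC2, hxKC, len_nonneg hr hdn, hrd2,
    ((min_le_right _ _).trans (min_le_left _ _)).trans hrn, hmin.2.1, hlin,
    by linarith only [hv0, hc0], hv1, by linarith only [hk0, hc0], hk1, hMb,
    fun X hX hX1 U hU hg => h2 n r X hr hX hX1 U hU hg⟩

namespace Fct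

variable {b c K K0 CA C2 : ℝ} {n d : ℕ} {r : ℕ → ℝ} {x : ℝ}

lemma x1 (h : Fct b c K K0 CA C2 n d r x) : x ≤ 1 := by
  have h1 := h.K1
  have h2 := h.CA1
  have h3 := h.xK
  have h4 := h.x0
  have h5 : 1 ≤ K * CA := by nlinarith only [h1, h2]
  nlinarith only [h5, h3, h4]

/-- the exponents before a time -/
lemma gml (h : Fct b c K K0 CA C2 n d r x) {u : ℝ} {l : ℕ} (hl : l < n)
    (hlu : r l < u) : Pw2.gm n (l + 1) ≤ K * max u x := by
  have hK := h.K1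
  have h4 : x ≤ max u x := le_max_right _ _
  have h4' : u ≤ max u x := le_max_left _ _
  have hx0 := h.x0
  rcases lt_or_ge l d with h' | h'
  · have h3 : Pw2.gm n (l + 1) ≤ x := by
      rw [← h.gm]
      exact grid_gm_mono (by omega)
    have h5 : 1 * max u x ≤ K * max u x := mul_le_mul_of_nonneg_right hK (by linarith)
    linarith
  · have h3 := h.lin l h' hl
    have h5 : K * r l ≤ K * max u x := mul_le_mul_of_nonneg_left (by linarith) (by linarith)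
    linarith

lemma X0 (h : Fct b c K K0 CA C2 n d r x) (u : ℝ) : 0 < K * max u x := by
  have : 0 < max u x := h.x0.trans_le (le_max_right _ _)
  have := h.K1
  positivity

lemma uX (h : Fct b c K K0 CA C2 n d r x) (u : ℝ) : u ≤ K * max u x := by
  have h1 : 0 < max u x := h.x0.trans_le (le_max_right _ _)
  have h2 : 1 * max u x ≤ K * max u x := mul_le_mul_of_nonneg_right h.K1 h1.le
  have h3 : u ≤ max u x := le_max_left _ _
  linarith

lemma SSd (h : Fct b c K K0 CA C2 n d r x) : SS n r (r d) ≤ x * r d := by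
  have h3 := SS_first h.dn.le h.zero (fun l h5 h6 => len_mono h.path h5 h6)
  rw [max_eq_left h.rd0] at h3
  have h4 := h.gm
  unfold Pw2.gm at h4
  rwa [h4] at h3

lemma rd2 (h : Fct b c K K0 CA C2 n d r x) : r d ^ 2 ≤ CA ^ 2 * x ^ 2 := by
  rw [← mul_pow]
  exact pow_le_pow_left₀ h.rd0 h.rd 2

lemma kku (h : Fct b c K K0 CA C2 n d r x) {u : ℝ} (hu0 : 0 ≤ u) (hu : u ≤ r d) :
    kk n r ^ 2 * u ^ 2 / 2 ≤ K0 ^ 2 * CA ^ 2 * x ^ 2 := by
  have hk2 : kk n r ^ 2 ≤ K0 ^ 2 := pow_le_pow_left₀ h.k0.le h.k1 2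
  have h8 : u ^ 2 ≤ CA ^ 2 * x ^ 2 := (pow_le_pow_left₀ hu0 hu 2).trans h.rd2
  have h9 : kk n r ^ 2 * u ^ 2 ≤ K0 ^ 2 * (CA ^ 2 * x ^ 2) :=
    mul_le_mul hk2 h8 (sq_nonneg _) (sq_nonneg _)
  have h10 : 0 ≤ kk n r ^ 2 * u ^ 2 := by positivity
  linarith only [h9, h10]

lemma SSu (h : Fct b c K K0 CA C2 n d r x) {u : ℝ} (hu : u ≤ r d) :
    SS n r u ≤ CA * x ^ 2 := by
  have h1 := SS_mono n r hu
  have h2 := h.SSd
  have h3 : x * r d ≤ x * (CA * x) := mul_le_mul_of_nonneg_left h.rd h.x0.le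
  linarith only [h1, h2, h3]

/-- the error at the time `r d` -/
lemma errd (h : Fct b c K K0 CA C2 n d r x) :
    C2 * (K * max (r d) x * √(K * max (r d) x)) * r d ≤
      C2 * K ^ 2 * (1 + CA ^ 2 * CA) * x ^ 2 := by
  have h7 : C2 * (K * max (r d) x * √(K * max (r d) x)) * r d =
    C2 * (K * max (r d) x * √(K * max (r d) x) * r d) := by ring
  rw [h7]
  have hC2 := h.C21
  refine (mul_le_mul_of_nonneg_left (law_pow h.K1 h.rd0 h.x1) (by linarith only [hC2])).trans ?_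
  have h9 : √(r d) ≤ CA := by
    have h1 := h.CA1
    rw [Real.sqrt_le_left (by linarith only [h1])]
    have h2 : CA * x ≤ CA * 1 := mul_le_mul_of_nonneg_left h.x1 (by linarith only [h1])
    have h3 := h.rd
    nlinarith only [h1, h2, h3]
  have h10 : r d ^ 2 * √(r d) ≤ CA ^ 2 * x ^ 2 * CA :=
    mul_le_mul h.rd2 h9 (Real.sqrt_nonneg _) (by positivity)
  have h11 : C2 * (K ^ 2 * (x ^ 2 + r d ^ 2 * √(r d))) ≤
      C2 * (K ^ 2 * (x ^ 2 + CA ^ 2 * x ^ 2 * CA)) := by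
    refine mul_le_mul_of_nonneg_left (mul_le_mul_of_nonneg_left ?_ (by positivity))
      (by linarith only [hC2])
    linarith only [h10]
  refine h11.trans (le_of_eq ?_)
  ring

/-- (B3) -/
lemma B3 (h : Fct b c K K0 CA C2 n d r x) : |vv n r ^ 2 - 1 / b ^ 2| ≤
    (1 + K0 ^ 2 * CA ^ 2 + 2 * CA + C2 * K ^ 2 * (1 + CA ^ 2 * CA)) * x ^ 2 := by
  have hX1 : K * max (r d) x ≤ 1 := by
    have h1 : max (r d) x ≤ CA * x := max_le h.rd (by
      have h1 := h.CA1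
      have h2 := h.x0
      nlinarith only [h1, h2])
    have h2 : K * max (r d) x ≤ K * (CA * x) :=
      mul_le_mul_of_nonneg_left h1 (by linarith only [h.K1])
    have h3 := h.xK
    linarith only [h2, h3]
  have hblk := h.path.2.1.2 d h.dn
  have ht : (0 : ℝ) ∈ Icc 0 (r (d + 1) - r d) := ⟨le_rfl, by linarith only [hblk]⟩
  have h3 := h.law _ (h.X0 (r d)) hX1 (r d) (h.uX (r d)) (fun l hl hlu => h.gml hl hlu) d h.dn 0
    ht (by rw [add_zero])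
  unfold Gd at h3
  rw [add_zero] at h3
  have h4 := h.Mb d le_rfl h.dn 0 ht
  have h6 := h.errd
  have h7 := h.kku h.rd0 le_rfl
  have h7' : 0 ≤ kk n r ^ 2 * r d ^ 2 / 2 := by positivity
  have hv3 : vv n r ^ 3 ≤ 1 := pow_le_one₀ h.v0.le h.v1
  have hv3' : 0 < vv n r ^ 3 := pow_pos h.v0 3
  have h8 : 2 * vv n r ^ 3 * SS n r (r d) ≤ 2 * CA * x ^ 2 := by
    have h9 := h.SSu le_rfl
    have h10 : 2 * vv n r ^ 3 * SS n r (r d) ≤ 2 * 1 * SS n r (r d) :=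
      mul_le_mul_of_nonneg_right (by linarith only [hv3]) (SS_nonneg _ _ _)
    linarith only [h9, h10]
  have h8' : 0 ≤ 2 * vv n r ^ 3 * SS n r (r d) := by
    have := SS_nonneg n r (r d)
    positivity
  have h9 : x ^ 8 ≤ x ^ 2 := pow_le_pow_of_le_one h.x0.le h.x1 (by norm_num)
  rw [abs_le] at h3 h4 ⊢
  constructor
  · linarith only [h3.1, h3.2, h4.1, h4.2, h6, h7, h7', h8, h8', h9]
  · linarith only [h3.1, h3.2, h4.1, h4.2, h6, h7, h7', h8, h8', h9]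

end Fct

lemma vb_of {b v E : ℝ} (hb : 0 < b) (hv : 0 < v) (h : |v ^ 2 - 1 / b ^ 2| ≤ E) :
    |v - 1 / b| ≤ b * E := by
  have h3 : v ^ 2 - 1 / b ^ 2 = (v - 1 / b) * (v + 1 / b) := by ring
  rw [h3, abs_mul, abs_of_pos (show 0 < v + 1 / b by positivity)] at h
  have h4 : |v - 1 / b| * (1 / b) ≤ |v - 1 / b| * (v + 1 / b) :=
    mul_le_mul_of_nonneg_left (by linarith) (abs_nonneg _)
  have h5 : |v - 1 / b| = b * (|v - 1 / b| * (1 / b)) := by field_simp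
  rw [h5]
  exact mul_le_mul_of_nonneg_left (h4.trans h) hb.le

lemma vb3_of {b v E : ℝ} (hb : 1 < b) (hv : 0 < v) (hv1 : v ≤ 1) (h : |v - 1 / b| ≤ E) :
    |v ^ 3 - 1 / b ^ 3| ≤ 3 * E := by
  have hb0 : 0 < b := by linarith
  have hE : 0 ≤ E := (abs_nonneg _).trans h
  have h3 : v ^ 3 - 1 / b ^ 3 = (v - 1 / b) * (v ^ 2 + v * (1 / b) + (1 / b) ^ 2) := by ring
  have hb1 : 1 / b ≤ 1 := by
    rw [div_le_one hb0]
    exact hb.le
  have hb1' : 0 < 1 / b := by positivity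
  have h4 : v ^ 2 + v * (1 / b) + (1 / b) ^ 2 ≤ 3 := by nlinarith
  have h5 : 0 ≤ v ^ 2 + v * (1 / b) + (1 / b) ^ 2 := by positivity
  rw [h3, abs_mul, abs_of_nonneg h5]
  have h6 := mul_le_mul h h4 h5 (by positivity)
  linarith

lemma law_num {b v k S u x K C2 D E Z Mv : ℝ} (hb : 1 < b) (hx8 : x ^ 8 ≤ x ^ 2)
    (hS : 0 ≤ S) (hS1 : S ≤ 1)
    (h1 : |Mv - v ^ 2 - (k ^ 2 * u ^ 2 / 2 - 2 * v ^ 3 * S)| ≤ C2 * K ^ 2 * (x ^ 2 + Z))
    (h2 : |Mv - 1 / b ^ 2| ≤ x ^ 8) (h3 : |v ^ 2 - 1 / b ^ 2| ≤ D * x ^ 2)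
    (h4 : |v ^ 3 - 1 / b ^ 3| ≤ E * x ^ 2) :
    |2 / b ^ 3 * S - k ^ 2 * u ^ 2 / 2| ≤ (1 + D + 2 * E) * x ^ 2 + C2 * K ^ 2 * (x ^ 2 + Z) := by
  have hb0 : 0 < b := by linarith
  have h11 : |2 * (v ^ 3 - 1 / b ^ 3) * S| ≤ 2 * E * x ^ 2 := by
    rw [abs_mul, abs_mul, abs_of_nonneg hS, abs_of_pos (show (0:ℝ) < 2 by norm_num)]
    have h12 : 2 * |v ^ 3 - 1 / b ^ 3| * S ≤ 2 * (E * x ^ 2) * 1 := by
      refine mul_le_mul (by linarith only [h4]) hS1 hS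
        (by linarith only [(abs_nonneg _).trans h4])
    linarith only [h12]
  have h13 : 2 / b ^ 3 * S - k ^ 2 * u ^ 2 / 2 =
      (Mv - v ^ 2 - (k ^ 2 * u ^ 2 / 2 - 2 * v ^ 3 * S)) -
      (Mv - 1 / b ^ 2) + (v ^ 2 - 1 / b ^ 2) - 2 * (v ^ 3 - 1 / b ^ 3) * S := by ring
  rw [h13]
  rw [abs_le] at h1 h2 h11 h3 ⊢
  constructor
  · linarith only [h1.1, h2.2, h3.1, h11.2, hx8]
  · linarith only [h1.2, h2.1, h3.2, h11.1, hx8]

/-- the law of the minimisers near the origin -/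
theorem law {b : ℝ} (hb : 1 < b) : ∃ c C : ℝ, 0 < c ∧ 1 ≤ C ∧ ∀ (n d : ℕ) (r : ℕ → ℝ), 1 ≤ d →
    d ≤ n → IsMinD b n d r → gm n d ≤ c → C ≤ gm n d ^ 40 * (n + 1) →
      |vv n r - 1 / b| ≤ C * gm n d ^ 2 ∧ ∀ u ∈ Icc 0 c,
        |2 / b ^ 3 * SS n r u - kk n r ^ 2 * u ^ 2 / 2| ≤ C * (gm n d ^ 2 + u ^ 2 * √u) := by
  have hb0 : 0 < b := by linarith
  obtain ⟨c, C, K, K0, CA, C2, hc, hC, hK0, hK, hCA, hC2, hF⟩ := fct hb
  obtain ⟨D, hD⟩ : ∃ D : ℝ, D = 1 + K0 ^ 2 * CA ^ 2 + 2 * CA + C2 * K ^ 2 * (1 + CA ^ 2 * CA) :=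
    ⟨_, rfl⟩
  have hD0 : 0 ≤ D := by rw [hD]; positivity
  have q1 : 0 ≤ b * D := by positivity
  have q2 : 0 ≤ C2 * K ^ 2 := by positivity
  have q3 : 0 ≤ K0 ^ 2 * CA ^ 2 := by positivity
  obtain ⟨C', hC'⟩ : ∃ C' : ℝ, C' = C + (1 + D + 6 * (b * D) + C2 * K ^ 2 + K0 ^ 2 * CA ^ 2 +
    2 * CA) := ⟨_, rfl⟩
  refine ⟨min c (1 / K), C', by positivity, by linarith, ?_⟩
  intro n d r hd1 hdn hmin hx hbig
  have h := hF n d r hd1 hdn hmin (hx.trans (min_le_left _ _)) (by linarith)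
  have hB3 := h.B3
  rw [← hD] at hB3
  obtain ⟨x, hxe⟩ : ∃ x, x = gm n d := ⟨_, rfl⟩
  rw [← hxe] at h hB3 ⊢
  have hx0 := h.x0
  have hx1 := h.x1
  have hx2 : 0 ≤ x ^ 2 := sq_nonneg x
  have hB3' := vb_of hb0 h.v0 hB3
  have hcube := vb3_of hb h.v0 h.v1 hB3'
  refine ⟨?_, ?_⟩
  · refine hB3'.trans ?_
    have h1 : b * (D * x ^ 2) = (b * D) * x ^ 2 := by ring
    rw [h1]
    refine mul_le_mul_of_nonneg_right ?_ hx2
    linarith
  intro u hu
  have hu0 : 0 ≤ u := hu.1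
  have huc : u ≤ c := hu.2.trans (min_le_left _ _)
  have huK : u ≤ 1 / K := hu.2.trans (min_le_right _ _)
  rw [le_div_iff₀ (by positivity)] at huK
  have hus : 0 ≤ u ^ 2 * √u := by positivity
  have hb3 : 0 < 1 / b ^ 3 := by positivity
  have hb3' : 1 / b ^ 3 ≤ 1 := by
    rw [div_le_one (by positivity)]
    exact one_le_pow₀ hb.le
  have hu1 : u ≤ 1 := by nlinarith only [huK, hK, hu0]
  have hSu0 := SS_nonneg n r u
  rcases le_total u (r d) with h' | h'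
  · -- before the first jump
    have h3 := h.SSu h'
    have h4 : 2 / b ^ 3 * SS n r u ≤ 2 * CA * x ^ 2 := by
      have h5 : 2 / b ^ 3 * SS n r u ≤ 2 * SS n r u := by
        refine mul_le_mul_of_nonneg_right ?_ hSu0
        have : 2 / b ^ 3 = 2 * (1 / b ^ 3) := by ring
        rw [this]
        linarith only [hb3']
      linarith only [h5, h3]
    have h4' : 0 ≤ 2 / b ^ 3 * SS n r u := by positivity
    have h5 := h.kku hu0 h'
    have h5' : 0 ≤ kk n r ^ 2 * u ^ 2 / 2 := by positivity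
    have h6 : (K0 ^ 2 * CA ^ 2 + 2 * CA) * x ^ 2 ≤ C' * (x ^ 2 + u ^ 2 * √u) := by
      have h7 : (K0 ^ 2 * CA ^ 2 + 2 * CA) * x ^ 2 ≤ C' * x ^ 2 :=
        mul_le_mul_of_nonneg_right (by linarith) hx2
      have h8 : 0 ≤ C' * (u ^ 2 * √u) := mul_nonneg (by linarith) hus
      linarith only [h7, h8]
    rw [abs_le]
    have q4 : 0 ≤ K0 ^ 2 * CA ^ 2 * x ^ 2 := by positivity
    have q5 : 0 ≤ 2 * CA * x ^ 2 := by positivity
    constructor
    · linarith only [q4, q5, h4', h5, h6]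
    · linarith only [q4, q5, h4, h5', h6]
  · obtain ⟨l, hdl, hln, hul⟩ := block_of h.dn h' (huc.trans h.last)
    have hX1 : K * max u x ≤ 1 := by
      rcases max_choice u x with h'' | h'' <;> rw [h'']
      · linarith only [huK]
      · have h1 := h.xK
        have h2 : K * x ≤ K * CA * x := by
          have : 0 ≤ K * x := by positivity
          nlinarith only [this, hCA]
        linarith only [h1, h2]
    have ht : u - r l ∈ Icc 0 (r (l + 1) - r l) :=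
      ⟨by linarith only [hul.1], by linarith only [hul.2]⟩
    have eu : r l + (u - r l) = u := by ring
    have h3 := h.law _ (h.X0 u) hX1 u (h.uX u) (fun i hi hiu => h.gml hi hiu) l hln (u - r l) ht
      (by rw [eu])
    unfold Gd at h3
    rw [eu] at h3
    have h4 := h.Mb l hdl hln (u - r l) ht
    have h5 := law_pow (K := K) (u := u) (x := x) hK hu0 hx1
    have h6 : C2 * (K * max u x * √(K * max u x)) * u ≤
        C2 * K ^ 2 * (x ^ 2 + u ^ 2 * √u) := by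
      have h7 : C2 * (K * max u x * √(K * max u x)) * u =
        C2 * (K * max u x * √(K * max u x) * u) := by ring
      rw [h7, mul_assoc C2 (K ^ 2)]
      exact mul_le_mul_of_nonneg_left h5 (by linarith only [hC2])
    have h9 : x ^ 8 ≤ x ^ 2 := pow_le_pow_of_le_one hx0.le hx1 (by norm_num)
    have h10 : SS n r u ≤ 1 := (SS_le (fun j hj => len_nonneg h.path hj) hu0).trans hu1
    have h11 := law_num (E := 3 * (b * D)) hb h9 hSu0 h10 (h3.trans h6) h4 hB3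
      (by linarith only [hcube])
    refine h11.trans ?_
    have h13 : (1 + D + 2 * (3 * (b * D))) * x ^ 2 ≤
        (1 + D + 2 * (3 * (b * D))) * (x ^ 2 + u ^ 2 * √u) :=
      mul_le_mul_of_nonneg_left (by linarith only [hus]) (by linarith only [q1, hD0])
    have h14 : (1 + D + 2 * (3 * (b * D)) + C2 * K ^ 2) * (x ^ 2 + u ^ 2 * √u) ≤
        C' * (x ^ 2 + u ^ 2 * √u) :=
      mul_le_mul_of_nonneg_right (by linarith) (by linarith only [hus, hx2])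
    linarith only [h13, h14]

end Vale.Agent.P146.R3.H729
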