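import Vale.Agent.P146.R3.H729.Law2
import Vale.Agent.P146.Bdl.B37

/-!
# P146, R5: the overlap path of a constrained minimiser: near optimality and profile
-/

set_option autoImplicit false

open Filter Topology Set

namespace Vale.Agent.P146.R3.H729

open Vale.Agent.P157.Par
open Vale.Agent.P146.Gap
open Vale.Agent.P146.Pw2
open Vale.Agent.P146.Lb
open Vale.Agent.P146.Sh
open Vale.Agent.P367.Cl

theorem near_path {b : ℝ} {n : ℕ} {r : ℕ → ℝ} (hr : BPath b n r) :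
    Path n (spR n (gm n) r) ∧ spR n (gm n) r 0 = 0 ∧ spR n (gm n) r n < 1 := by
  have hm := gm_exponents n
  exact ⟨⟨spR_nonneg hm hr.2.1 (Nat.zero_le _), fun l hl => spR_mono hm hr.2.1 hl⟩,
    Gap.spR_zero hm hr.2.1 hr.1, spR_lt_one hm hr.2.1 le_rfl⟩

/-- near optimality: the dual value of the overlap path -/
theorem near_val {b : ℝ} (hb : 1 < b) : ∃ C : ℝ, 1 ≤ C ∧ ∀ (n d : ℕ) (r : ℕ → ℝ), 1 ≤ d →
    d ≤ n → IsMinD b n d r → ∀ r' : ℕ → ℝ, Path n r' → spinPart n (gm n) r'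
        + 1 / 2 * ∑ l ∈ Finset.range (n + 1),
          (gm n (l + 1) - gm n l) * r' l * spR n (gm n) r l
        + b ^ 2 / 4 * (1 - ∑ l ∈ Finset.range (n + 1),
          (gm n (l + 1) - gm n l) * spR n (gm n) r l ^ 2) ≤
      P0 b + C * gm n d ^ 5 + 2 * b ^ 2 / (n + 1) := by
  obtain ⟨C, hC, hup⟩ := vx_up hb
  refine ⟨C, hC, fun n d r hd1 hdn hmin r' hr' => ?_⟩
  have h1 := t1f_good (by linarith : 0 < b) (gm_exponents n) hmin.1 hr'
  have hx0 : 0 < gm n d := grid_gm_pos hd1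
  have hx1 : gm n d ≤ 1 := by
    rw [← grid_gm_top n]
    exact grid_gm_mono (by omega)
  have hlt : gm n (d - 1) < gm n d := by
    have h := gm_sub n (d - 1)
    have e : d - 1 + 1 = d := by omega
    rw [e] at h
    have : (0 : ℝ) < 1 / ((n : ℝ) + 1) := by positivity
    linarith only [h, this]
  have h2 := vx_ge hb hd1 hdn hx0 hx1 hlt hmin
  have h3 := hup (gm n d) hx0 hx1
  linarith only [h1, h2, h3]

/-- the profile of the overlap path -/
theorem near_prof {b : ℝ} (hb : 0 < b) {n : ℕ} {r : ℕ → ℝ} (hr : BPath b n r)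
    (hst : ∀ l ≤ n, r l = b ^ 2 * spR n (gm n) r l) (y : ℝ) :
    1 - y - ∑ l ∈ Finset.range (n + 1), (gm n (l + 1) - gm n l) * max (spR n (gm n) r l - y) 0 =
      vv n r - SS n r (b ^ 2 * y) / b ^ 2 := by
  have hm := gm_exponents n
  have hvv : vv n r = 1 - ∑ l ∈ Finset.range (n + 1), (gm n (l + 1) - gm n l) *
      spR n (gm n) r l := by
    rw [← second_deriv_eq hm hr.2.1 hr.1]
    unfold vv
    rw [fl_zero]
  have hSS : SS n r (b ^ 2 * y) / b ^ 2 = ∑ l ∈ Finset.range (n + 1),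
      (gm n (l + 1) - gm n l) * (y - spR n (gm n) r l + max (spR n (gm n) r l - y) 0) := by
    unfold SS
    rw [Finset.sum_div]
    refine Finset.sum_congr rfl fun l hl => ?_
    rw [Finset.mem_range] at hl
    rw [hst l (by omega), gm_sub]
    have h1 : max (b ^ 2 * y - b ^ 2 * spR n (gm n) r l) 0 =
        b ^ 2 * (y - spR n (gm n) r l + max (spR n (gm n) r l - y) 0) := by
      rcases le_total y (spR n (gm n) r l) with h | h
      · rw [max_eq_right (by nlinarith [sq_nonneg b]), max_eq_left (by linarith)]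
        ring
      · rw [max_eq_left (by nlinarith [sq_nonneg b]), max_eq_right (by linarith)]
        ring
    rw [h1]
    field_simp
  have hw : ∑ l ∈ Finset.range (n + 1), (gm n (l + 1) - gm n l) = 1 := by
    rw [Finset.sum_range_sub, hm.2.1, hm.1, sub_zero]
  rw [hvv, hSS]
  have h2 : ∑ l ∈ Finset.range (n + 1),
      (gm n (l + 1) - gm n l) * (y - spR n (gm n) r l + max (spR n (gm n) r l - y) 0) =
      (∑ l ∈ Finset.range (n + 1), (gm n (l + 1) - gm n l)) * y -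
        ∑ l ∈ Finset.range (n + 1), (gm n (l + 1) - gm n l) * spR n (gm n) r l +
        ∑ l ∈ Finset.range (n + 1), (gm n (l + 1) - gm n l) *
          max (spR n (gm n) r l - y) 0 := by
    rw [Finset.sum_mul, ← Finset.sum_sub_distrib, ← Finset.sum_add_distrib]
    exact Finset.sum_congr rfl fun l _ => by ring
  rw [h2, hw]
  ring

/-- the law of the profile of the overlap path near the origin -/
theorem near_law {b : ℝ} (hb : 1 < b) : ∃ c C : ℝ, 0 < c ∧ 1 ≤ C ∧ ∀ (n d : ℕ) (r : ℕ → ℝ),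
    1 ≤ d → d ≤ n → IsMinD b n d r → gm n d ≤ c → C ≤ gm n d ^ 40 * (n + 1) →
      ∀ y ∈ Icc 0 c, |1 - b * (1 - y - ∑ l ∈ Finset.range (n + 1),
        (gm n (l + 1) - gm n l) * max (spR n (gm n) r l - y) 0) -
          (kk n r * b ^ 3) ^ 2 / 4 * y ^ 2| ≤ C * (gm n d ^ 2 + y ^ 2 * √y) := by
  have hb0 : 0 < b := by linarith
  obtain ⟨c, C, hc, hC, hl⟩ := law hb
  refine ⟨min c (c / b ^ 2), C * (1 + b + b ^ 7), by positivity, ?_, ?_⟩
  · have : 0 < C * (b + b ^ 7) := by positivity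
    nlinarith
  intro n d r hd1 hdn hmin hx hbig y hy
  have hr := hmin.1
  have hst := statD hb0 hmin
  have hbig' : C ≤ gm n d ^ 40 * (n + 1) := by
    have : 0 < C * (b + b ^ 7) := by positivity
    nlinarith
  obtain ⟨h1, h2⟩ := hl n d r hd1 hdn hmin (hx.trans (min_le_left _ _)) hbig'
  have hy0 : 0 ≤ y := hy.1
  have hyc : y ≤ c / b ^ 2 := hy.2.trans (min_le_right _ _)
  rw [le_div_iff₀ (by positivity)] at hyc
  have h3 := h2 (b ^ 2 * y) ⟨by positivity, by linarith⟩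
  rw [near_prof hb0 hr hst y]
  obtain ⟨x, hxe⟩ : ∃ x, x = gm n d := ⟨_, rfl⟩
  rw [← hxe] at h1 h3 ⊢
  have hs : √(b ^ 2 * y) = b * √y := by
    rw [Real.sqrt_mul (by positivity), Real.sqrt_sq hb0.le]
  rw [hs] at h3
  have e : 1 - b * (vv n r - SS n r (b ^ 2 * y) / b ^ 2) - (kk n r * b ^ 3) ^ 2 / 4 * y ^ 2 =
      -b * (vv n r - 1 / b) + b ^ 2 / 2 * (2 / b ^ 3 * SS n r (b ^ 2 * y) -
        kk n r ^ 2 * (b ^ 2 * y) ^ 2 / 2) := by
    field_simp
    ring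
  rw [e]
  refine (abs_add_le _ _).trans ?_
  rw [abs_mul, abs_mul, abs_neg, abs_of_pos hb0, abs_of_pos (show 0 < b ^ 2 / 2 by positivity)]
  have h4 : b * |vv n r - 1 / b| ≤ b * (C * x ^ 2) := mul_le_mul_of_nonneg_left h1 hb0.le
  have h5 := mul_le_mul_of_nonneg_left h3 (show 0 ≤ b ^ 2 / 2 by positivity)
  have hys : 0 ≤ y ^ 2 * √y := by positivity
  have hx2 : 0 ≤ x ^ 2 := sq_nonneg x
  have e2 : b ^ 2 / 2 * (C * (x ^ 2 + (b ^ 2 * y) ^ 2 * (b * √y))) =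
      C * (b ^ 2 / 2 * x ^ 2 + b ^ 7 / 2 * (y ^ 2 * √y)) := by ring
  rw [e2] at h5
  have hb2 : b ^ 2 ≤ b ^ 7 := pow_le_pow_right₀ hb.le (by norm_num)
  have e3 : b * (C * x ^ 2) + C * (b ^ 2 / 2 * x ^ 2 + b ^ 7 / 2 * (y ^ 2 * √y)) =
      C * ((b + b ^ 2 / 2) * x ^ 2 + b ^ 7 / 2 * (y ^ 2 * √y)) := by ring
  have e4 : C * (1 + b + b ^ 7) * (x ^ 2 + y ^ 2 * √y) =
      C * ((1 + b + b ^ 7) * x ^ 2 + (1 + b + b ^ 7) * (y ^ 2 * √y)) := by ring
  have h6 : (b + b ^ 2 / 2) * x ^ 2 ≤ (1 + b + b ^ 7) * x ^ 2 :=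
    mul_le_mul_of_nonneg_right (by nlinarith) hx2
  have hb7 : 0 < b ^ 7 := by positivity
  have h7 : b ^ 7 / 2 * (y ^ 2 * √y) ≤ (1 + b + b ^ 7) * (y ^ 2 * √y) :=
    mul_le_mul_of_nonneg_right (by linarith) hys
  have h8 : C * ((b + b ^ 2 / 2) * x ^ 2 + b ^ 7 / 2 * (y ^ 2 * √y)) ≤
      C * ((1 + b + b ^ 7) * x ^ 2 + (1 + b + b ^ 7) * (y ^ 2 * √y)) :=
    mul_le_mul_of_nonneg_left (add_le_add h6 h7) (by linarith)
  rw [e4]
  linarith

end Vale.Agent.P146.R3.H729
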