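import Vale.Agent.P146.R3.H729.NearA

/-!
# P146, R5: the sequence of minimisers and the passage to the limit
-/

set_option autoImplicit false

open Filter Topology Set

namespace Vale.Agent.P146.R3.H729

open Vale.Agent.P157.Par
open Vale.Agent.P146.Gap
open Vale.Agent.P146.Pw2
open Vale.Agent.P146.Lb
open Vale.Agent.P146.Sh
open Vale.Agent.P367.Cl

/-- the choice of the constrained minimisers -/
def Sel (b A : ℝ) : Prop := ∀ e : ℝ, 0 < e → ∃ x0 : ℝ, 0 < x0 ∧ ∀ x : ℝ, 0 < x → x < x0 →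
  ∀ᶠ n : ℕ in atTop, ∃ (d : ℕ) (r : ℕ → ℝ), 1 ≤ d ∧ d ≤ n ∧ x ≤ gm n d ∧
    gm n d ≤ (1 + e) * x ∧ IsMinD b n d r ∧ |9 / 80 * vv n r ^ 12 / kk n r ^ 6 - A| ≤ e

/-- the sequence of minimisers -/
theorem seq_exists {b A : ℝ} (hsel : Sel b A) {c C : ℝ} (hc : 0 < c) :
    ∃ (n d : ℕ → ℕ) (r : ℕ → ℕ → ℝ), ∀ j, 1 ≤ d j ∧ d j ≤ n j ∧ IsMinD b (n j) (d j) (r j) ∧
      gm (n j) (d j) ≤ c ∧ gm (n j) (d j) ≤ 1 / ((j : ℝ) + 1) ∧
      C ≤ gm (n j) (d j) ^ 40 * ((n j : ℝ) + 1) ∧ 1 / (((n j : ℕ) : ℝ) + 1) ≤ 1 / ((j : ℝ) + 1) ∧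
      |9 / 80 * vv (n j) (r j) ^ 12 / kk (n j) (r j) ^ 6 - A| ≤ 1 / ((j : ℝ) + 1) := by
  have key : ∀ j : ℕ, ∃ (n d : ℕ) (r : ℕ → ℝ), 1 ≤ d ∧ d ≤ n ∧ IsMinD b n d r ∧
      gm n d ≤ c ∧ gm n d ≤ 1 / ((j : ℝ) + 1) ∧
      C ≤ gm n d ^ 40 * ((n : ℝ) + 1) ∧ 1 / ((n : ℝ) + 1) ≤ 1 / ((j : ℝ) + 1) ∧
      |9 / 80 * vv n r ^ 12 / kk n r ^ 6 - A| ≤ 1 / ((j : ℝ) + 1) := by
    intro j
    have hj : (0 : ℝ) < 1 / ((j : ℝ) + 1) := by positivity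
    have hj1 : 1 / ((j : ℝ) + 1) ≤ 1 := by
      rw [div_le_one (by positivity)]
      linarith [(Nat.cast_nonneg j : (0 : ℝ) ≤ j)]
    obtain ⟨x0, hx0, h⟩ := hsel _ hj
    obtain ⟨x, hx⟩ : ∃ x : ℝ, x = min (x0 / 2) (min (c / 2) (1 / ((j : ℝ) + 1) / 2)) := ⟨_, rfl⟩
    have hxp : 0 < x := by rw [hx]; positivity
    have hx1 : x ≤ x0 / 2 := by rw [hx]; exact min_le_left _ _
    have hx2 : x ≤ c / 2 := by rw [hx]; exact (min_le_right _ _).trans (min_le_left _ _)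
    have hx3 : x ≤ 1 / ((j : ℝ) + 1) / 2 := by
      rw [hx]; exact (min_le_right _ _).trans (min_le_right _ _)
    have hbig : ∀ᶠ n : ℕ in atTop, C ≤ x ^ 40 * ((n : ℝ) + 1) :=
      (shlim_n1.const_mul_atTop (by positivity)).eventually_ge_atTop C
    have hbig2 : ∀ᶠ n : ℕ in atTop, (j : ℝ) + 1 ≤ (n : ℝ) + 1 :=
      shlim_n1.eventually_ge_atTop _
    obtain ⟨n, ⟨d, r, h1, h2, h3, h4, h5, h6⟩, h7, h8⟩ :=
      ((h x hxp (by linarith)).and (hbig.and hbig2)).exists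
    have h9 : gm n d ≤ 2 * x := h4.trans (mul_le_mul_of_nonneg_right (by linarith) hxp.le)
    refine ⟨n, d, r, h1, h2, h5, by linarith, by linarith, h7.trans ?_, ?_, h6⟩
    · exact mul_le_mul_of_nonneg_right (pow_le_pow_left₀ hxp.le h3 40) (by positivity)
    · exact one_div_le_one_div_of_le (by positivity) h8
  choose n d r h using key
  exact ⟨n, d, r, h⟩

lemma tendsto_inv_j : Tendsto (fun j : ℕ => 1 / ((j : ℝ) + 1)) atTop (𝓝 0) :=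
  tendsto_one_div_add_atTop_nhds_zero_nat

lemma tendsto_of_inv {u : ℕ → ℝ} {a K : ℝ} (h : ∀ j, |u j - a| ≤ K * (1 / ((j : ℝ) + 1))) :
    Tendsto u atTop (𝓝 a) := by
  have h1 : Tendsto (fun j : ℕ => K * (1 / ((j : ℝ) + 1))) atTop (𝓝 (K * 0)) :=
    tendsto_inv_j.const_mul K
  rw [mul_zero] at h1
  have h2 : Tendsto (fun j => u j - a) atTop (𝓝 0) := squeeze_zero_norm (fun j => by
    rw [Real.norm_eq_abs]; exact h j) h1
  have h3 := h2.add_const a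
  simpa using h3

/-- the limit of the constants -/
theorem lim_kappa {b A : ℝ} (hb : 0 < b) (hA : 0 < A) {v k : ℕ → ℝ}
    (hk : ∀ j, 0 < k j) (hv : Tendsto v atTop (𝓝 (1 / b)))
    (hlim : Tendsto (fun j => 9 / 80 * v j ^ 12 / k j ^ 6) atTop (𝓝 A)) :
    Tendsto (fun j => (k j * b ^ 3) ^ 2) atTop (𝓝 ((9 / 80 * b ^ 6 / A) ^ (1 / 3 : ℝ))) := by
  have h1 : Tendsto (fun j => 9 / 80 * v j ^ 12 * b ^ 18 / (9 / 80 * v j ^ 12 / k j ^ 6)) atTop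
      (𝓝 (9 / 80 * (1 / b) ^ 12 * b ^ 18 / A)) :=
    (((hv.pow 12).const_mul (9 / 80)).mul_const (b ^ 18)).div hlim hA.ne'
  have e : 9 / 80 * (1 / b) ^ 12 * b ^ 18 / A = 9 / 80 * b ^ 6 / A := by
    field_simp
  rw [e] at h1
  have hv0 : ∀ᶠ j in atTop, v j ≠ 0 := hv.eventually_ne (by positivity)
  have h2 : Tendsto (fun j => (k j * b ^ 3) ^ 6) atTop (𝓝 (9 / 80 * b ^ 6 / A)) := by
    refine h1.congr' ?_
    filter_upwards [hv0] with j hj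
    have := (hk j).ne'
    field_simp
  have h3 := h2.rpow_const (p := (1 / 3 : ℝ)) (Or.inr (by norm_num))
  refine h3.congr fun j => ?_
  have h4 : 0 ≤ (k j * b ^ 3) ^ 2 := by positivity
  have h5 : (k j * b ^ 3) ^ 6 = ((k j * b ^ 3) ^ 2) ^ 3 := by ring
  rw [h5, ← Real.rpow_natCast, ← Real.rpow_mul h4]
  norm_num

/-- the passage to the limit in the law of the profiles -/
theorem lim_prof {b c C a : ℝ} {lamj : ℕ → ℝ → ℝ} {κ x : ℕ → ℝ} {l : ℝ → ℝ}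
    (hκ0 : ∀ j, 0 ≤ κ j)
    (hx : Tendsto x atTop (𝓝 0)) (hκ : Tendsto κ atTop (𝓝 a))
    (hlaw : ∀ j, ∀ y ∈ Icc 0 c, |1 - b * lamj j y - κ j / 4 * y ^ 2| ≤
      C * (x j ^ 2 + y ^ 2 * √y))
    (hl : ∀ y ∈ Icc (0 : ℝ) 1, Tendsto (fun j => min (b * lamj j y) 1) atTop (𝓝 (l y))) :
    ∀ y, 0 ≤ y → y ≤ min c 1 → |1 - l y - a / 4 * y ^ 2| ≤ C * (y ^ 2 * √y) := by
  intro y hy0 hy
  have h1 := hl y ⟨hy0, hy.trans (min_le_right _ _)⟩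
  have h2 : Tendsto (fun j => |1 - min (b * lamj j y) 1 - κ j / 4 * y ^ 2|) atTop
      (𝓝 |1 - l y - a / 4 * y ^ 2|) :=
    ((h1.const_sub 1).sub ((hκ.div_const 4).mul_const (y ^ 2))).abs
  have h3 : Tendsto (fun j => C * (x j ^ 2 + y ^ 2 * √y)) atTop (𝓝 (C * (0 ^ 2 + y ^ 2 * √y))) :=
    ((hx.pow 2).add_const _).const_mul C
  have e : C * (0 ^ 2 + y ^ 2 * √y) = C * (y ^ 2 * √y) := by ring
  rw [e] at h3
  refine le_of_tendsto_of_tendsto' h2 h3 fun j => ?_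
  have h4 := hlaw j y ⟨hy0, hy.trans (min_le_left _ _)⟩
  refine le_trans ?_ h4
  have h5 : 0 ≤ κ j / 4 * y ^ 2 := by
    have := hκ0 j
    positivity
  rcases le_total (b * lamj j y) 1 with h | h
  · rw [min_eq_left h]
  · rw [min_eq_right h, sub_self, zero_sub, abs_neg, abs_of_nonneg h5]
    rw [abs_of_nonpos (by linarith)]
    linarith

end Vale.Agent.P146.R3.H729
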