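import Vale.Agent.P146.Bdl.B40

set_option linter.all false

/-!
# P146, explicit lower exponent: the quadratic form of the resolvent is large as soon as the
overlaps of the interpolated system are close to a path which satisfies the contact law
-/

open MeasureTheory ProbabilityTheory Matrix Filter Topology

namespace Vale.Agent.P146.R3.H729.TbLow

open Vale.Agent.P157 (spin)
open Vale.Agent.P157.Lv
open Vale.Agent.P157.Par (Path Exponents topN lw spinPart)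
open Vale.Agent.P146.Sk
open Vale.Agent.P166.F (Lam)
open Vale.Agent.P146.Sk.Gen (GI gz gl r0 gS gF gOb gIsOpt GD gV)
open Vale.Agent.P146.Pw2

variable {N K : ℕ}

/-- The second moment of the overlaps around a path. -/
noncomputable def Qd (K : ℕ) (m q : ℕ → ℝ) (S : Sy (GI (Ix N) N K) (Fin N → Bool)) : ℝ :=
  ∑ l ∈ Finset.range (K + 1), (m (l + 1) - m l) *
    S.pairEx l (fun x x' => (Rov spin x x' - q l) ^ 2)

lemma lam_zero {m q : ℕ → ℝ} (hq : Path K q) : Lam K m q 0 = Sk.chi K m q := by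
  unfold Vale.Agent.P166.F.Lam Sk.chi
  rw [sub_zero]
  congr 1
  refine Finset.sum_congr rfl fun l hl => ?_
  have hl' : l ≤ K := Nat.lt_succ_iff.1 (Finset.mem_range.1 hl)
  have h1 : 0 ≤ q l := by
    have h2 : ∀ j, j ≤ K → 0 ≤ q j := by
      intro j
      induction j with
      | zero => intro _; exact hq.1
      | succ j ih => intro hj; exact (ih (by omega)).trans (hq.2 j (by omega))
    exact h2 l hl'
  rw [sub_zero, max_eq_left h1]

/-- two paths -/
lemma lam_sub_le {m : ℕ → ℝ} (hm : Exponents K m) (q R : ℕ → ℝ) (u : ℝ) :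
    |Lam K m R u - Lam K m q u| ≤
      ∑ l ∈ Finset.range (K + 1), (m (l + 1) - m l) * |R l - q l| := by
  have e : Lam K m R u - Lam K m q u = ∑ l ∈ Finset.range (K + 1), (m (l + 1) - m l) *
      (max (q l - u) 0 - max (R l - u) 0) := by
    unfold Vale.Agent.P166.F.Lam
    simp only [mul_sub, Finset.sum_sub_distrib]
    ring
  rw [e]
  refine (Finset.abs_sum_le_sum_abs _ _).trans (Finset.sum_le_sum fun l hl => ?_)
  have hl' : l ≤ K := Nat.lt_succ_iff.1 (Finset.mem_range.1 hl)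
  have hw : 0 ≤ m (l + 1) - m l := (sub_pos.2 (hm.2.2 l hl')).le
  rw [abs_mul, abs_of_nonneg hw]
  refine mul_le_mul_of_nonneg_left ?_ hw
  have h1 := abs_max_sub_max_le_abs (q l - u) (R l - u) 0
  refine h1.trans (le_of_eq ?_)
  rw [abs_sub_comm]
  congr 1
  ring

lemma sum_w {m : ℕ → ℝ} (hm : Exponents K m) :
    ∑ l ∈ Finset.range (K + 1), (m (l + 1) - m l) = 1 := by
  rw [Finset.sum_range_sub, hm.1, hm.2.1, sub_zero]

/-- Cauchy–Schwarz -/
lemma wabs_le {m : ℕ → ℝ} (hm : Exponents K m) (x : ℕ → ℝ) :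
    ∑ l ∈ Finset.range (K + 1), (m (l + 1) - m l) * |x l| ≤
      √(∑ l ∈ Finset.range (K + 1), (m (l + 1) - m l) * x l ^ 2) := by
  refine Real.le_sqrt_of_sq_le ?_
  have h := Finset.sum_mul_sq_le_sq_mul_sq (Finset.range (K + 1))
    (fun l => √(m (l + 1) - m l)) (fun l => √(m (l + 1) - m l) * |x l|)
  have hw : ∀ l ∈ Finset.range (K + 1), 0 ≤ m (l + 1) - m l := fun l hl =>
    (sub_pos.2 (hm.2.2 l (Nat.lt_succ_iff.1 (Finset.mem_range.1 hl)))).le
  have e1 : ∑ l ∈ Finset.range (K + 1), √(m (l + 1) - m l) * (√(m (l + 1) - m l) * |x l|) =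
      ∑ l ∈ Finset.range (K + 1), (m (l + 1) - m l) * |x l| :=
    Finset.sum_congr rfl fun l hl => by rw [← mul_assoc, Real.mul_self_sqrt (hw l hl)]
  have e2 : ∑ l ∈ Finset.range (K + 1), √(m (l + 1) - m l) ^ 2 = 1 := by
    rw [← sum_w hm]
    exact Finset.sum_congr rfl fun l hl => Real.sq_sqrt (hw l hl)
  have e3 : ∑ l ∈ Finset.range (K + 1), (√(m (l + 1) - m l) * |x l|) ^ 2 =
      ∑ l ∈ Finset.range (K + 1), (m (l + 1) - m l) * x l ^ 2 :=
    Finset.sum_congr rfl fun l hl => by rw [mul_pow, Real.sq_sqrt (hw l hl), sq_abs]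
  rw [e1, e2, e3, one_mul] at h
  exact h

/-- the second moment around `q` is the variance plus the square of the deviation of the mean -/
lemma qd_eq {m : ℕ → ℝ} {E : (Ix N → ℝ) → (Fin N → Bool) → ℝ}
    {D : Ix N → (Ix N → ℝ) → (Fin N → Bool) → ℝ} (hD : GD K m E D (spin (N := N)))
    {s : ℕ → ℝ} (hs : ∀ l ≤ K, 0 ≤ s l) (q : ℕ → ℝ) :
    Qd K m q (gS K m E spin s) = Vd m (gS K m E spin s) +
      ∑ l ∈ Finset.range (K + 1), (m (l + 1) - m l) *
        ((gS K m E spin s).Rl spin l - q l) ^ 2 := by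
  have F := Gen.gS_fld hD hs
  have hR := F.hreg
  unfold Qd Vd
  rw [← Finset.sum_add_distrib]
  refine Finset.sum_congr rfl fun l hl => ?_
  have hl' : l ≤ K := Nat.lt_succ_iff.1 (Finset.mem_range.1 hl)
  have hlK : l ≤ (gS K m E (spin (N := N)) s).K := hl'
  rw [← mul_add]
  congr 1
  have e2 : (gS K m E (spin (N := N)) s).pairEx l (fun x x' => Rov spin x x') =
      (gS K m E spin s).Rl spin l := (F.Rl_eq_pairEx hlK).symm
  have ex : ∀ c : ℝ, (gS K m E (spin (N := N)) s).pairEx l (fun x x' => (Rov spin x x' - c) ^ 2) =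
      (gS K m E (spin (N := N)) s).pairEx l (fun x x' => Rov spin x x' ^ 2) +
        ((-(2 * c)) * (gS K m E spin s).Rl spin l + c * c) := by
    intro c
    have e1 : (fun x x' : Fin N → Bool => (Rov spin x x' - c) ^ 2) =
        fun x x' => Rov spin x x' ^ 2 + ((-(2 * c)) * Rov spin x x' + c * c) := by
      funext x x'
      ring
    rw [e1, hR.pairEx_add hlK (fun x x' => Rov spin x x' ^ 2)
      (fun x x' => (-(2 * c)) * Rov spin x x' + c * c),
      hR.pairEx_add hlK (fun x x' => (-(2 * c)) * Rov spin x x') (fun _ _ => c * c),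
      hR.pairEx_const_mul, hR.pairEx_const hlK, e2]
  unfold dev2
  rw [ex, ex]
  ring

/-- **The quadratic form of the resolvent is large.** -/
theorem tb_low {β : ℝ} (hβ : 0 < β) (C0 : ℝ) (hC0 : 1 ≤ C0) : ∃ C : ℝ, 1 ≤ C ∧
    ∀ (N K : ℕ) (m q : ℕ → ℝ) (t a b : ℝ) (s : ℕ → ℝ), 0 < N → Exponents K m → Path K q →
      q K ≤ 1 → 0 < t → t ≤ 1 / C → C ≤ N * t ^ 24 →
      (∀ u ∈ Set.Icc (0 : ℝ) 1, 1 - C0 * u ^ 2 - t ^ 3 ≤ β * Vale.Agent.P166.F.Lam K m q u ∧
        β * Vale.Agent.P166.F.Lam K m q u ≤ 1 + t ^ 3) →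
      a ∈ Set.Icc (0 : ℝ) 1 → 1 - t ^ 3 ≤ a → b ∈ Set.Icc (0 : ℝ) 1 → C * b ≤ t ^ 13 →
      (∀ l ≤ K, 0 ≤ s l) → Qd K m q (sy N K m β (t ^ 4) a b s) ≤ (t ^ 5 / C) ^ 2 →
      1 / (C * t ^ 3) ≤ Tb (t ^ 4) (sy N K m β (t ^ 4) a b s) := by
  obtain ⟨Cv, hCv1, hv⟩ := val_b hβ.le
  obtain ⟨Cz, hCz1, hz⟩ := zeta_facts
  obtain ⟨C, hC⟩ : ∃ C : ℝ, C = 64 + 64 * β + Cz + Cv + (48 * Cv + 1) * (10 ^ 6 * C0) := ⟨_, rfl⟩
  have p1 : 0 ≤ (48 * Cv + 1) * (10 ^ 6 * C0) := by positivity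
  have c64 : 64 ≤ C := by rw [hC]; linarith only [p1, hβ, hCz1, hCv1]
  have cβ : 64 * β ≤ C := by rw [hC]; linarith only [p1, hβ, hCz1, hCv1]
  have cz : Cz ≤ C := by rw [hC]; linarith only [p1, hβ, hCz1, hCv1]
  have cv : Cv ≤ C := by rw [hC]; linarith only [p1, hβ, hCz1, hCv1]
  have cb : (48 * Cv + 1) * (10 ^ 6 * C0) ≤ C := by rw [hC]; linarith only [p1, hβ, hCz1, hCv1]
  clear hC
  have hC0' : 0 < C := by linarith only [c64]
  refine ⟨C, by linarith only [c64], ?_⟩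
  intro N K m q t a b s hN hm hq hq1 ht htC hNt hcon ha hat hb hbt hs hQ
  have hN' : (0 : ℝ) < N := by exact_mod_cast hN
  have ht64 : t ≤ 1 / 64 := htC.trans (one_div_le_one_div_of_le (by norm_num) c64)
  have ht1 : t ≤ 1 := ht64.trans (by norm_num)
  have hsq : √(t ^ 4) = t ^ 2 := by
    rw [show t ^ 4 = (t ^ 2) ^ 2 by ring, Real.sqrt_sq (by positivity)]
  have hy0 : 0 < t ^ 4 := by positivity
  have hyt : t ^ 4 ≤ t := by
    calc t ^ 4 ≤ t ^ 1 := pow_le_pow_of_le_one ht.le ht1 (by norm_num)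
      _ = t := pow_one t
  have hyc : ∀ c : ℝ, 1 ≤ c → c ≤ C → t ^ 4 ≤ 1 / c := fun c h1 h2 =>
    (hyt.trans htC).trans (one_div_le_one_div_of_le (by linarith only [h1]) h2)
  have hN6 : C ≤ N * (t ^ 4) ^ 6 := by
    rw [← pow_mul]
    exact hNt
  obtain ⟨-, -, -, -, -, -, z1, z2, z3, z4⟩ := hz N (t ^ 4) hN hy0 (hyc Cz hCz1 cz)
    (cz.trans hN6)
  rw [hsq] at z1 z2 z3 z4
  obtain ⟨D, B, h, hB, hBe, hBw⟩ := gdq (K := K) β hy0 hN hm a b
  have F := Gen.gS_fld h hs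
  have hRp : Path K (fun l => (sy N K m β (t ^ 4) a b s).Rl spin l) := om_path h hs
  have hRK : (fun l => (sy N K m β (t ^ 4) a b s).Rl spin l) K ≤ 1 := F.Rl_le_one le_rfl
  have hqd := qd_eq h hs q
  obtain ⟨R, hR⟩ : ∃ R : ℕ → ℝ, R = fun l => (sy N K m β (t ^ 4) a b s).Rl spin l := ⟨_, rfl⟩
  rw [← hR] at hRp hRK
  have hVd0 : 0 ≤ Vd m (sy N K m β (t ^ 4) a b s) := by
    unfold Vd
    refine Finset.sum_nonneg fun l hl => mul_nonneg ?_ ?_
    · exact (sub_pos.2 (hm.2.2 l (Nat.lt_succ_iff.1 (Finset.mem_range.1 hl)))).le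
    · have hl' : l ≤ K := Nat.lt_succ_iff.1 (Finset.mem_range.1 hl)
      exact F.hreg.pairEx_nonneg (l := l) hl' fun x x' => sq_nonneg _
  obtain ⟨M2, hM2⟩ : ∃ M2 : ℝ, M2 = ∑ l ∈ Finset.range (K + 1), (m (l + 1) - m l) *
      (R l - q l) ^ 2 := ⟨_, rfl⟩
  have hqd' : Qd K m q (sy N K m β (t ^ 4) a b s) = Vd m (sy N K m β (t ^ 4) a b s) + M2 := by
    rw [hM2, hR]
    exact hqd
  have hM20 : 0 ≤ M2 := by
    rw [hM2]
    refine Finset.sum_nonneg fun l hl => mul_nonneg ?_ (sq_nonneg _)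
    exact (sub_pos.2 (hm.2.2 l (Nat.lt_succ_iff.1 (Finset.mem_range.1 hl)))).le
  have hd0 : 0 ≤ t ^ 5 / C := by positivity
  have hV : √(Vd m (sy N K m β (t ^ 4) a b s)) ≤ t ^ 5 / C := by
    rw [← Real.sqrt_sq hd0]
    exact Real.sqrt_le_sqrt (by linarith only [hQ, hqd', hM20])
  have hM : √M2 ≤ t ^ 5 / C := by
    rw [← Real.sqrt_sq hd0]
    exact Real.sqrt_le_sqrt (by linarith only [hQ, hqd', hVd0])
  have hLam : ∀ u : ℝ, |Vale.Agent.P166.F.Lam K m R u - Vale.Agent.P166.F.Lam K m q u| ≤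
      t ^ 5 / C := fun u => (lam_sub_le hm q R u).trans
        ((wabs_le hm fun l => R l - q l).trans (by rw [← hM2]; exact hM))
  -- small quantities
  have s1 : β * (t ^ 5 / C) ≤ t ^ 2 / 64 := by
    have e1 : β * (t ^ 5 / C) = β / C * t ^ 5 := by ring
    have e2 : β / C ≤ 1 / 64 := by
      rw [div_le_div_iff₀ hC0' (by norm_num)]
      linarith only [cβ]
    have e3 : t ^ 5 ≤ t ^ 2 := pow_le_pow_of_le_one ht.le ht1 (by norm_num)
    rw [e1]
    calc β / C * t ^ 5 ≤ 1 / 64 * t ^ 2 := mul_le_mul e2 e3 (by positivity) (by norm_num)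
      _ = t ^ 2 / 64 := by ring
  have s2 : t ^ 3 ≤ t ^ 2 / 64 := by
    calc t ^ 3 = t ^ 2 * t := by ring
      _ ≤ t ^ 2 * (1 / 64) := mul_le_mul_of_nonneg_left ht64 (by positivity)
      _ = t ^ 2 / 64 := by ring
  have ha0 : 0 ≤ a := ha.1
  have ha1 : a ≤ 1 := ha.2
  have hβa : 0 ≤ β * a := mul_nonneg hβ.le ha0
  -- the upper bound of the eigenvalue
  have hchi : β * a * Sk.chi K m R ≤ 1 + t ^ 2 / 32 := by
    rw [← lam_zero hRp]
    have e1 := (abs_le.1 (hLam 0)).2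
    have e2 := (hcon 0 ⟨le_rfl, zero_le_one⟩).2
    have e3 : β * Vale.Agent.P166.F.Lam K m R 0 ≤
        β * Vale.Agent.P166.F.Lam K m q 0 + β * (t ^ 5 / C) := by
      rw [← mul_add]
      exact mul_le_mul_of_nonneg_left (by linarith only [e1]) hβ.le
    have e4 : β * Vale.Agent.P166.F.Lam K m R 0 ≤ 1 + t ^ 2 / 32 := by
      linarith only [e3, e2, s1, s2]
    calc β * a * Vale.Agent.P166.F.Lam K m R 0 = a * (β * Vale.Agent.P166.F.Lam K m R 0) := by
          ring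
      _ ≤ a * (1 + t ^ 2 / 32) := mul_le_mul_of_nonneg_left e4 ha0
      _ ≤ 1 * (1 + t ^ 2 / 32) := mul_le_mul_of_nonneg_right ha1 (by positivity)
      _ = 1 + t ^ 2 / 32 := one_mul _
  have hκ : β * a * Sk.chi K m R + t ^ 2 / 4 ≤ ‖zt N (t ^ 4)‖ := by
    refine le_trans ?_ (Complex.re_le_norm _)
    linarith only [hchi, z1, sq_nonneg t]
  have hval := hv N K m (t ^ 4) a b (t ^ 2 / 4) s hN hm hy0 (hyc Cv hCv1 cv) (cv.trans hN6) ha hb
    hs (by positivity) (by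
      have : t ^ 2 ≤ 1 := pow_le_one₀ ht.le ht1
      linarith only [this]) (by rw [← hR]; exact hκ)
  rw [← hR] at hval
  -- the error
  have herr : Cv / (t ^ 2 / 4) ^ 2 * (1 / t ^ 4 * (√(Vd m (sy N K m β (t ^ 4) a b s)) +
      b / (t ^ 4) ^ 2) + 1 / (N * (t ^ 4) ^ 4)) ≤ 48 * Cv / (C * t ^ 3) := by
    have e1 : b / (t ^ 4) ^ 2 ≤ t ^ 5 / C := by
      rw [div_le_div_iff₀ (by positivity) hC0']
      calc b * C = C * b := mul_comm _ _
        _ ≤ t ^ 13 := hbt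
        _ = t ^ 5 * (t ^ 4) ^ 2 := by ring
    have e2 : 1 / ((N : ℝ) * (t ^ 4) ^ 4) ≤ t / C := by
      rw [div_le_div_iff₀ (by positivity) hC0']
      have h1 : (N : ℝ) * t ^ 24 ≤ t * (N * (t ^ 4) ^ 4) := by
        have h2 : t ^ 24 ≤ t * (t ^ 4) ^ 4 := by
          calc t ^ 24 ≤ t ^ 17 := pow_le_pow_of_le_one ht.le ht1 (by norm_num)
            _ = t * (t ^ 4) ^ 4 := by ring
        calc (N : ℝ) * t ^ 24 ≤ N * (t * (t ^ 4) ^ 4) := mul_le_mul_of_nonneg_left h2 hN'.le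
          _ = t * (N * (t ^ 4) ^ 4) := by ring
      linarith only [h1, hNt]
    have e3 : 1 / t ^ 4 * (√(Vd m (sy N K m β (t ^ 4) a b s)) + b / (t ^ 4) ^ 2) +
        1 / (N * (t ^ 4) ^ 4) ≤ 3 * (t / C) := by
      have h1 : 1 / t ^ 4 * (√(Vd m (sy N K m β (t ^ 4) a b s)) + b / (t ^ 4) ^ 2) ≤
          1 / t ^ 4 * (t ^ 5 / C + t ^ 5 / C) :=
        mul_le_mul_of_nonneg_left (by linarith only [hV, e1]) (by positivity)
      have h2 : 1 / t ^ 4 * (t ^ 5 / C + t ^ 5 / C) = 2 * (t / C) := by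
        field_simp
        ring
      linarith only [h1, h2, e2]
    calc Cv / (t ^ 2 / 4) ^ 2 * (1 / t ^ 4 * (√(Vd m (sy N K m β (t ^ 4) a b s)) +
          b / (t ^ 4) ^ 2) + 1 / (N * (t ^ 4) ^ 4)) ≤ Cv / (t ^ 2 / 4) ^ 2 * (3 * (t / C)) :=
          mul_le_mul_of_nonneg_left e3 (by positivity)
      _ = 48 * Cv / (C * t ^ 3) := by
          field_simp
          ring
  -- the main term
  have hphi := phi_lower (c := β * a) (κ := t ^ 2 / 8) (v := t / (4 * C0)) (ζ := zt N (t ^ 4)) hm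
    hRp hRK hβa (by positivity) (by
      have : t ^ 2 ≤ 1 := pow_le_one₀ ht.le ht1
      linarith only [this]) (by linarith only [z1]) (by linarith only [z2])
    (by linarith only [z3]) (by linarith only [z4])
    (by linarith only [hchi, sq_nonneg t]) (by positivity) (by
      rw [div_le_one (by positivity)]
      linarith only [ht1, hC0]) (by
      intro u hu
      have hu1 : u ≤ 1 := hu.2.trans (by
        rw [div_le_one (by positivity)]
        linarith only [ht1, hC0])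
      obtain ⟨e1, e2⟩ := hcon u ⟨hu.1, hu1⟩
      have e3 := (abs_le.1 (hLam u)).1
      have e4 : C0 * u ^ 2 ≤ t ^ 2 / 16 := by
        have h1 : u ^ 2 ≤ (t / (4 * C0)) ^ 2 := pow_le_pow_left₀ hu.1 hu.2 2
        have h2 : C0 * u ^ 2 ≤ C0 * (t / (4 * C0)) ^ 2 :=
          mul_le_mul_of_nonneg_left h1 (by linarith only [hC0])
        have h3 : C0 * (t / (4 * C0)) ^ 2 = t ^ 2 / 16 * (1 / C0) := by
          field_simp
          ring
        have h4 : 1 / C0 ≤ 1 := by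
          rw [div_le_one (by linarith only [hC0])]
          exact hC0
        have h5 : t ^ 2 / 16 * (1 / C0) ≤ t ^ 2 / 16 * 1 :=
          mul_le_mul_of_nonneg_left h4 (by positivity)
        linarith only [h2, h3, h5]
      have e5 : β * Vale.Agent.P166.F.Lam K m q u - β * (t ^ 5 / C) ≤
          β * Vale.Agent.P166.F.Lam K m R u := by
        rw [← mul_sub]
        exact mul_le_mul_of_nonneg_left (by linarith only [e3]) hβ.le
      obtain ⟨X, hX⟩ : ∃ X : ℝ, X = β * Vale.Agent.P166.F.Lam K m R u := ⟨_, rfl⟩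
      rw [← hX] at e5
      have e6 : 1 - t ^ 2 / 16 - t ^ 2 / 32 ≤ X := by linarith only [e5, e1, e4, s1, s2]
      have e7 : β * a * Vale.Agent.P166.F.Lam K m R u = a * X := by
        rw [hX]
        ring
      rw [e7]
      have e8 : a * (1 - t ^ 2 / 16 - t ^ 2 / 32) ≤ a * X := mul_le_mul_of_nonneg_left e6 ha0
      have e9 : (1 - a) * (1 - t ^ 2 / 16 - t ^ 2 / 32) ≤ (1 - a) * 1 :=
        mul_le_mul_of_nonneg_left (by linarith only [sq_nonneg t]) (by linarith only [ha1])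
      linarith only [e8, e9, hat, s2, sq_nonneg t])
  have hmain : 16 / (10 ^ 6 * C0 * t ^ 3) ≤ PHI (zt N (t ^ 4)) (β * a) K m R := by
    refine le_trans (le_of_eq ?_) hphi
    field_simp
    ring
  have hfin : 1 / (C * t ^ 3) ≤ 16 / (10 ^ 6 * C0 * t ^ 3) - 48 * Cv / (C * t ^ 3) := by
    have h1 : (48 * Cv + 1) / (C * t ^ 3) ≤ 1 / (10 ^ 6 * C0 * t ^ 3) := by
      rw [div_le_div_iff₀ (by positivity) (by positivity)]
      have h2 : (48 * Cv + 1) * (10 ^ 6 * C0) * t ^ 3 ≤ C * t ^ 3 :=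
        mul_le_mul_of_nonneg_right cb (by positivity)
      linarith only [h2]
    have h3 : (48 * Cv + 1) / (C * t ^ 3) = 48 * Cv / (C * t ^ 3) + 1 / (C * t ^ 3) := by
      rw [add_div]
    have h4 : (16 : ℝ) / (10 ^ 6 * C0 * t ^ 3) = 16 * (1 / (10 ^ 6 * C0 * t ^ 3)) := by ring
    have h5 : 0 ≤ 1 / (10 ^ 6 * C0 * t ^ 3) := by positivity
    linarith only [h1, h3, h4, h5]
  have h9 := (abs_le.1 hval).1
  linarith only [h9, herr, hmain, hfin]

end Vale.Agent.P146.R3.H729.TbLow
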