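import Vale.Agent.P146.Bdl.B40

set_option linter.all false

/-!
# P146, explicit lower exponent: the values of the quadratic forms of the resolvent with a second
moment bound in place of the operator norm
-/

open MeasureTheory ProbabilityTheory Finset Matrix

namespace Vale.Agent.P146.R3.H729.Val2

open Vale.Agent.P157 Vale.Agent.P157.Lv Vale.Agent.P157.Lv.Sy
open Vale.Agent.P146.Sk Vale.Agent.P146.Sk.Rec

section gen

variable {ι X : Type} [Fintype ι] [DecidableEq ι] [Fintype X] [DecidableEq X] [Nonempty X]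
  {S : Sy ι X} {N : ℕ} {φ : X → Fin N → ℝ} {A : (ι → ℝ) → Matrix (Fin N) (Fin N) ℝ}
  {A' : Ix N → (ι → ℝ) → Matrix (Fin N) (Fin N) ℝ}
  {α : (ι → ℝ) → ℝ} {D : ι → (ι → ℝ) → X → ℝ} {g : Ix N → ι} {c : ℝ}
  {B : Ix N → (ι → ℝ) → X → ℝ} {w : (ι → ℝ) → ℝ} {ε : ℕ → ℝ}

/-! ### The recursion with an abstract error -/

lemma MM_le' (hS : S.Reg) (he0 : ∀ k, 0 ≤ ε k) (het : ∀ k, ε (S.K + 1) ≤ ε k) (hLL : ∀ i j j', i ≤ S.K + 1 → j ≤ S.K + 1 → j' ≤ S.K + 1 →
    |LL S D g φ A i j j' - c * (RR S φ (min i j) * TT S φ A (min i j'))| ≤ ε (min i j)) {j a b : ℕ} (hj : j ≤ S.K)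
    (ha : a ≤ S.K + 1) (hb : b ≤ S.K + 1) :
    |MM S D g φ A j a b - c * Mh S φ A j a b| ≤ ε (min (S.K + 1) a) +
      ∑ i ∈ Finset.Ico (j + 1) (S.K + 1), S.p i * ε (min i a) +
      S.m (j + 1) * ε (min j a) := by
  have h1 := hLL (S.K + 1) a b le_rfl ha hb
  have h2 := hLL j a b (by omega) ha hb
  have h3 := sum_err hS (s := Finset.Ico (j + 1) (S.K + 1)) (fun i hi => by
    have := Finset.mem_Ico.1 hi
    omega) (f := fun i => LL S D g φ A i a b)
    (h := fun i => RR S φ (min i a) * TT S φ A (min i b))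
    (e := fun i => ε (min i a)) (c := c) (fun i hi => hLL i a b (by
    have := Finset.mem_Ico.1 hi
    omega) ha hb)
  have hm : 0 ≤ S.m (j + 1) := by
    have := hS.m_pos (l := j + 1) (by omega) (by omega)
    linarith
  have h4 : |S.m (j + 1) * LL S D g φ A j a b -
      c * (S.m (j + 1) * (RR S φ (min j a) * TT S φ A (min j b)))| ≤
      S.m (j + 1) * ε (min j a) := by
    rw [show S.m (j + 1) * LL S D g φ A j a b -
      c * (S.m (j + 1) * (RR S φ (min j a) * TT S φ A (min j b))) = S.m (j + 1) *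
      (LL S D g φ A j a b - c * (RR S φ (min j a) * TT S φ A (min j b))) by ring, abs_mul,
      abs_of_nonneg hm]
    exact mul_le_mul_of_nonneg_left h2 hm
  unfold MM Mh
  rw [abs_le] at h1 h3 h4 ⊢
  constructor
  · linarith only [h4.2, h3.2, h1.1]
  · linarith only [h4.1, h3.1, h1.2]

lemma DD_le' (hS : S.Reg) (he0 : ∀ k, 0 ≤ ε k) (het : ∀ k, ε (S.K + 1) ≤ ε k) (hLL : ∀ i j j', i ≤ S.K + 1 → j ≤ S.K + 1 → j' ≤ S.K + 1 →
    |LL S D g φ A i j j' - c * (RR S φ (min i j) * TT S φ A (min i j'))| ≤ ε (min i j)) {j : ℕ} (hj : j ≤ S.K + 1) :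
    |(LL S D g φ A (S.K + 1) j j -
        ∑ i ∈ Finset.range (S.K + 1), S.p i * LL S D g φ A i j j) - c * Dh S φ A j| ≤
      ε (min (S.K + 1) j) +
      ∑ i ∈ Finset.range (S.K + 1), S.p i * ε (min i j) := by
  have h1 := hLL (S.K + 1) j j le_rfl hj hj
  have h3 := sum_err hS (s := Finset.range (S.K + 1)) (fun i hi => by
    have := Finset.mem_range.1 hi
    omega) (f := fun i => LL S D g φ A i j j)
    (h := fun i => RR S φ (min i j) * TT S φ A (min i j))
    (e := fun i => ε (min i j)) (c := c) (fun i hi => hLL i j j (by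
    have := Finset.mem_range.1 hi
    omega) hj hj)
  unfold Dh
  rw [abs_le] at h1 h3 ⊢
  constructor
  · linarith only [h3.2, h1.1]
  · linarith only [h3.1, h1.2]

lemma main_le' (hS : S.Reg) (he0 : ∀ k, 0 ≤ ε k) (het : ∀ k, ε (S.K + 1) ≤ ε k) (hLL : ∀ i j j', i ≤ S.K + 1 → j ≤ S.K + 1 → j' ≤ S.K + 1 →
    |LL S D g φ A i j j' - c * (RR S φ (min i j) * TT S φ A (min i j'))| ≤ ε (min i j)) {j : ℕ} (hj : j ≤ S.K + 1) :
    |dl S D g φ A j + (LL S D g φ A (S.K + 1) j j -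
        ∑ i ∈ Finset.range (S.K + 1), S.p i * LL S D g φ A i j j) - c * HH S φ A j| ≤
      7 * ε j + 2 * ∑ i ∈ Finset.range (S.K + 1), S.p i * ε i := by
  have hD := DD_le' hS he0 het hLL hj
  have hsig0 : 0 ≤ ∑ i ∈ Finset.range (S.K + 1), S.p i * ε i :=
    sum_nonneg fun i hi => mul_nonneg (p_nonneg hS (Nat.lt_succ_iff.1 (Finset.mem_range.1 hi)))
      (he0 _)
  rcases le_or_gt j S.K with hjK | hjK
  · have h1 := MM_le' hS he0 het hLL (a := S.K + 1) (b := j) hjK le_rfl hj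
    have h2 := MM_le' hS he0 het hLL (a := j) (b := S.K + 1) hjK hj le_rfl
    have e1 : Mh S φ A j (S.K + 1) j = TT S φ A j -
        ∑ i ∈ Finset.Ico (j + 1) (S.K + 1), S.p i * RR S φ i * TT S φ A j -
        S.m (j + 1) * (RR S φ j * TT S φ A j) := by
      unfold Mh
      rw [min_self, min_eq_right hj, RR_top, one_mul, min_eq_left hj, min_self]
      congr 2
      refine sum_congr rfl fun i hi => ?_
      have hi' := Finset.mem_Ico.1 hi
      rw [min_eq_left (by omega), min_eq_right (by omega)]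
      ring
    have e2 : Mh S φ A j j (S.K + 1) = RR S φ j * TT S φ A (S.K + 1) -
        RR S φ j * ∑ i ∈ Finset.Ico (j + 1) (S.K + 1), S.p i * TT S φ A i -
        S.m (j + 1) * (RR S φ j * TT S φ A j) := by
      unfold Mh
      rw [min_self, min_eq_right hj, min_eq_left hj, min_self, mul_sum]
      congr 2
      refine sum_congr rfl fun i hi => ?_
      have hi' := Finset.mem_Ico.1 hi
      rw [min_eq_right (by omega), min_eq_left (by omega)]
      ring
    have e3 : Dh S φ A j = RR S φ j * TT S φ A j -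
        (∑ i ∈ Finset.range j, S.p i * (RR S φ i * TT S φ A i) +
          (1 - S.m j) * (RR S φ j * TT S φ A j)) := by
      unfold Dh
      rw [min_eq_right hj, ← Finset.sum_range_add_sum_Ico _ hj]
      congr 2
      · refine sum_congr rfl fun i hi => ?_
        have hi' := Finset.mem_range.1 hi
        rw [min_eq_left (by omega)]
      · rw [← hS.mK, ← sum_p_Ico S hj, sum_mul]
        refine sum_congr rfl fun i hi => ?_
        have hi' := Finset.mem_Ico.1 hi
        rw [min_eq_right (by omega)]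
    have e4 : HH S φ A j = Mh S φ A j (S.K + 1) j + Mh S φ A j j (S.K + 1) + Dh S φ A j := by
      rw [e1, e2, e3]
      unfold HH
      rw [if_pos hjK, Finset.sum_eq_sum_Ico_succ_bot (by omega : j < S.K + 1), ← sum_mul]
      have : S.p j = S.m (j + 1) - S.m j := rfl
      rw [this]
      ring
    -- the errors
    have b1 : ∑ i ∈ Finset.Ico (j + 1) (S.K + 1), S.p i * ε (min i (S.K + 1)) ≤
        ∑ i ∈ Finset.range (S.K + 1), S.p i * ε i := by
      have : ∑ i ∈ Finset.Ico (j + 1) (S.K + 1), S.p i * ε (min i (S.K + 1)) =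
          ∑ i ∈ Finset.Ico (j + 1) (S.K + 1), S.p i * ε i := by
        refine sum_congr rfl fun i hi => ?_
        have hi' := Finset.mem_Ico.1 hi
        rw [min_eq_left (by omega)]
      rw [this]
      refine Finset.sum_le_sum_of_subset_of_nonneg (fun i hi => ?_) fun i hi _ => ?_
      · have hi' := Finset.mem_Ico.1 hi
        exact Finset.mem_range.2 (by omega)
      · exact mul_nonneg (p_nonneg hS (Nat.lt_succ_iff.1 (Finset.mem_range.1 hi)))
          (he0 _)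
    have hm1 : 0 ≤ S.m (j + 1) := (hS.m_pos (l := j + 1) (by omega) (by omega)).le
    have hm2 : S.m (j + 1) ≤ 1 := hS.m_le_one (by omega)
    have hmj0 : 0 ≤ S.m j := by
      rw [← hS.m0]
      exact hS.m_mono (Nat.zero_le _) (by omega)
    have hej := he0 j
    have b2 : ∑ i ∈ Finset.Ico (j + 1) (S.K + 1), S.p i * ε (min i j) ≤
        ε j := by
      have : ∑ i ∈ Finset.Ico (j + 1) (S.K + 1), S.p i * ε (min i j) =
          (S.m (S.K + 1) - S.m (j + 1)) * ε j := by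
        rw [← sum_p_Ico S (by omega), sum_mul]
        refine sum_congr rfl fun i hi => ?_
        have hi' := Finset.mem_Ico.1 hi
        rw [min_eq_right (by omega)]
      rw [this, hS.mK]
      linarith only [mul_nonneg (sub_nonneg.2 hm1) (sub_nonneg.2 hej)]
    have b3 : ∑ i ∈ Finset.range (S.K + 1), S.p i * ε (min i j) ≤
        ∑ i ∈ Finset.range (S.K + 1), S.p i * ε i + ε j := by
      rw [← Finset.sum_range_add_sum_Ico _ hj, ← Finset.sum_range_add_sum_Ico
        (fun i => S.p i * ε i) hj]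
      have c1 : ∑ i ∈ Finset.range j, S.p i * ε (min i j) =
          ∑ i ∈ Finset.range j, S.p i * ε i := by
        refine sum_congr rfl fun i hi => ?_
        have hi' := Finset.mem_range.1 hi
        rw [min_eq_left (by omega)]
      have c2 : ∑ i ∈ Finset.Ico j (S.K + 1), S.p i * ε (min i j) =
          (S.m (S.K + 1) - S.m j) * ε j := by
        rw [← sum_p_Ico S (by omega), sum_mul]
        refine sum_congr rfl fun i hi => ?_
        have hi' := Finset.mem_Ico.1 hi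
        rw [min_eq_right (by omega)]
      have c3 : 0 ≤ ∑ i ∈ Finset.Ico j (S.K + 1), S.p i * ε i :=
        sum_nonneg fun i hi => mul_nonneg (p_nonneg hS (by
          have hi' := Finset.mem_Ico.1 hi
          omega)) (he0 _)
      rw [c1, c2, hS.mK]
      linarith only [mul_nonneg (sub_nonneg.2 hmj0) (sub_nonneg.2 hej), mul_nonneg (sub_nonneg.2 hm2) (sub_nonneg.2 c3), mul_nonneg (sub_nonneg.2 hm1) (sub_nonneg.2 c3)]
    have b4 := het j
    have b5 : S.m (j + 1) * ε j ≤ ε j := by linarith only [mul_nonneg (sub_nonneg.2 hm2) (sub_nonneg.2 hej)]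
    rw [min_self, min_eq_left hj] at h1
    rw [min_eq_right hj, min_self] at h2
    rw [min_eq_right hj] at hD
    unfold dl
    rw [if_pos hjK, e4]
    rw [abs_le] at h1 h2 hD ⊢
    constructor
    · linarith [h1.1, h2.1, hD.1]
    · linarith only [hD.2, h2.2, h1.2, b5, b4, b3, b2, b1]
  · have hjK' : j = S.K + 1 := by omega
    subst hjK'
    have e1 : Dh S φ A (S.K + 1) = HH S φ A (S.K + 1) := by
      unfold Dh HH
      rw [min_self, RR_top, one_mul, if_neg (by omega)]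
      congr 1
      refine sum_congr rfl fun i hi => ?_
      have hi' := Finset.mem_range.1 hi
      rw [min_eq_left (by omega)]
    have e2 : ∑ i ∈ Finset.range (S.K + 1), S.p i * ε (min i (S.K + 1)) =
        ∑ i ∈ Finset.range (S.K + 1), S.p i * ε i := by
      refine sum_congr rfl fun i hi => ?_
      have hi' := Finset.mem_range.1 hi
      rw [min_eq_left (by omega)]
    rw [min_self, e1, e2] at hD
    unfold dl
    rw [if_neg (by omega), zero_add]
    have := he0 (S.K + 1)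
    linarith


/-- The identity with the main part of the right-hand side, abstract error. -/
theorem exact_idx' (hC : Rec.Ctx S D g φ c B w) (hA : Rec.LMat S A α)
    (hd : ∀ e, PDM (g e) A (A' e)) (hA' : ∀ e, EGM (A' e))
    (he0 : ∀ k, 0 ≤ ε k) (het : ∀ k, ε (S.K + 1) ≤ ε k) (hLL : ∀ i j j', i ≤ S.K + 1 →
    j ≤ S.K + 1 → j' ≤ S.K + 1 →
    |LL S D g φ A i j j' - c * (RR S φ (min i j) * TT S φ A (min i j'))| ≤ ε (min i j))
    {j : ℕ} (hj : j ≤ S.K + 1) :
    |1 / (N : ℝ) * S.Ex (fun z x => Rec.yv S φ j z x ⬝ᵥ Rec.WW g z *ᵥ (A z *ᵥ Rec.yv S φ j z x)) -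
      (c * Rec.HH S φ A j + 1 / N * S.Ex (fun z x => ∑ e,
        Me (Rec.yv S φ j z x) (A' e z *ᵥ Rec.yv S φ j z x) e))| ≤
      7 * ε j + 2 * ∑ i ∈ Finset.range (S.K + 1), S.p i * ε i := by
  have h1 := Vale.Agent.P146.Pw2.exact_ida hC hA hd hA' hj
  have h2 := main_le' hC.reg.toReg he0 het hLL hj
  rw [h1]
  rw [abs_le] at h2 ⊢
  constructor
  · linarith only [h2.1]
  · linarith only [h2.2]

/-! ### The second moment bound -/

/-- the image of the magnetizations -/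
lemma Ex_nv_yv (hS : S.Reg) (hA : LMat S A α) (j : ℕ) :
    S.Ex (fun z x => nv (A z *ᵥ yv S φ j z x) ^ 2) ≤ S.Ex (fun z x => nv (A z *ᵥ φ x) ^ 2) := by
  rcases le_or_gt j S.K with hj | hj
  · have e1 : ∀ z x, A z *ᵥ yv S φ j z x =
        fun a => Ti S j (fun z x => (A z *ᵥ φ x) a) z x := by
      intro z x
      rw [yv_le hj]
      have h := mulVec_T hS hj hA.eg hA.dep (f := fun _ x => φ x) nhv_phi z
      have e2 : (fun a => Ti S j (fun z x => (A z *ᵥ φ x) a) z x) =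
          fun a => S.T j (fun z x => (A z *ᵥ φ x) a) z := by
        funext a
        unfold Ti
        rw [if_pos hj]
      rw [e2, ← h]
      rfl
    have nA : ∀ a, Nh (fun z x => (A z *ᵥ φ x) a) := fun a => nhv_phi.mulVec hA.eg a
    simp only [e1, nv_sq]
    rw [hS.Ex_sum _ fun a _ => Nh.pow (nh_Ti hS j (nA a)) 2,
      hS.Ex_sum _ fun a _ => Nh.pow (nA a) 2]
    exact sum_le_sum fun a _ => Ex_Ti_sq_le hS j (nA a)
  · simp only [yv_gt hj]
    exact le_rfl

lemma nh_nv (hS : S.Reg) (hA : LMat S A α) (j : ℕ) :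
    Nh (fun z x => nv (A z *ᵥ yv S φ j z x) ^ 2) := by
  simp only [nv_sq]
  exact Nh.sum _ fun a _ => Nh.pow ((nhv_yv hS j).mulVec hA.eg a) 2

/-- the main term -/
lemma PE_main2 (hS : S.Reg) (hN : 0 < N) (hφ : ∀ x, ∑ i, φ x i ^ 2 = N) (hA : LMat S A α)
    {a2 : ℝ} (ha2 : S.Ex (fun z x => nv (A z *ᵥ φ x) ^ 2) ≤ N * a2)
    {i j j' : ℕ} (hi : i ≤ S.K + 1) (hj : j ≤ S.K + 1) (hj' : j' ≤ S.K + 1) :
    |PE S i (fun z x x' => (1 / (N : ℝ) * (yv S φ j z x ⬝ᵥ φ x')) *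
      (1 / (N : ℝ) * ((A z *ᵥ yv S φ j' z x) ⬝ᵥ φ x'))) - RR S φ (min i j) * TT S φ A (min i j')| ≤
      √(vv S φ (min i j)) * √a2 := by
  have hN' : (0 : ℝ) < N := by exact_mod_cast hN
  have n1 : Nh2 (fun (z : ι → ℝ) (x x' : X) => 1 / (N : ℝ) * (yv S φ j z x ⬝ᵥ φ x') -
      RR S φ (min i j)) := fun x' =>
    Nh.sub (Nh.const_mul _ ((nhv_yv hS j).dot fun a => Nh.snd fun _ => φ x' a))
      (Nh.fst (EG.const _))
  have n2 : Nh2 (fun (z : ι → ℝ) (x x' : X) =>
      1 / (N : ℝ) * ((A z *ᵥ yv S φ j' z x) ⬝ᵥ φ x')) := fun x' =>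
    Nh.const_mul _ (((nhv_yv hS j').mulVec hA.eg).dot fun a => Nh.snd fun _ => φ x' a)
  have e1 : (fun (z : ι → ℝ) (x x' : X) => (1 / (N : ℝ) * (yv S φ j z x ⬝ᵥ φ x')) *
      (1 / (N : ℝ) * ((A z *ᵥ yv S φ j' z x) ⬝ᵥ φ x'))) = fun z x x' =>
      (1 / (N : ℝ) * (yv S φ j z x ⬝ᵥ φ x') - RR S φ (min i j)) *
      (1 / (N : ℝ) * ((A z *ᵥ yv S φ j' z x) ⬝ᵥ φ x')) +
      RR S φ (min i j) * (1 / (N : ℝ) * ((A z *ᵥ yv S φ j' z x) ⬝ᵥ φ x')) := by
    funext z x x'
    ring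
  rw [e1, PE_add hS i (n1.mul n2) (n2.const_mul _), PE_const_mul, PE_rem hS hA hi hj',
    add_sub_cancel_right]
  refine (PE_cs hS i n1 n2).trans ?_
  refine mul_le_mul (Real.sqrt_le_sqrt (PE_ov hS hN hφ hi hj)) (Real.sqrt_le_sqrt ?_)
    (Real.sqrt_nonneg _) (Real.sqrt_nonneg _)
  have n3 := nh_nv (φ := φ) hS hA j'
  have h1 : PE S i (fun z x x' => (1 / (N : ℝ) * ((A z *ᵥ yv S φ j' z x) ⬝ᵥ φ x')) ^ 2) ≤
      PE S i (fun z x _ => 1 / (N : ℝ) * nv (A z *ᵥ yv S φ j' z x) ^ 2) := by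
    refine PE_mono hS i (n2.pow 2) (Nh2.of _ (Nh.const_mul _ n3)) fun z x x' => ?_
    have h1 : ((A z *ᵥ yv S φ j' z x) ⬝ᵥ φ x') ^ 2 ≤
        nv (A z *ᵥ yv S φ j' z x) ^ 2 * nv (φ x') ^ 2 := by
      rw [← mul_pow, ← sq_abs]
      exact pow_le_pow_left₀ (abs_nonneg _) (abs_dot_le _ _) 2
    rw [nv_phi hφ] at h1
    rw [mul_pow, one_div, inv_pow, inv_mul_le_iff₀ (by positivity)]
    refine h1.trans (le_of_eq ?_)
    field_simp
  refine h1.trans ?_
  rw [PE_fst hS, Sy.Ex_const_mul, one_div, inv_mul_le_iff₀ hN']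
  exact (Ex_nv_yv hS hA j').trans ha2

/-- the functional with the second moment bounds -/
lemma LL_le2 (hC : Ctx S D g φ c B w) (hA : LMat S A α) {a2 w2 : ℝ}
    (ha2 : S.Ex (fun z x => nv (A z *ᵥ φ x) ^ 2) ≤ N * a2)
    (hw2 : S.Ex (fun z x => ∑ e, B e z x ^ 2) ≤ N * w2) {i j j' : ℕ} (hi : i ≤ S.K + 1)
    (hj : j ≤ S.K + 1) (hj' : j' ≤ S.K + 1) :
    |LL S D g φ A i j j' - c * (RR S φ (min i j) * TT S φ A (min i j'))| ≤
      √a2 * (|c| * √(vv S φ (min i j)) + √(2 * w2)) := by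
  have hS := hC.reg.toReg
  have hN' : (0 : ℝ) < N := by exact_mod_cast hC.N0
  have nM : ∀ e : Ix N, Nh (fun z x => Me (yv S φ j z x) (A z *ᵥ yv S φ j' z x) e) := fun e =>
    (nhv_yv hS j).me ((nhv_yv hS j').mulVec hA.eg) e
  have nP : ∀ e : Ix N, Nh (ι := ι) (fun _ x => φ x e.1 * φ x e.2 / √(2 * (N : ℝ))) := fun e =>
    Nh.snd fun x => φ x e.1 * φ x e.2 / √(2 * (N : ℝ))
  have hD : ∀ e : Ix N, D (g e) = fun z x =>
      c * (fun (_ : ι → ℝ) (x : X) => φ x e.1 * φ x e.2 / √(2 * (N : ℝ))) z x + B e z x := by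
    intro e
    funext z x
    exact hC.dB e z x
  have e1 : (fun z x => ∑ e, Me (yv S φ j z x) (A z *ᵥ yv S φ j' z x) e *
      Ti S i (D (g e)) z x) = fun z x =>
      c * ∑ e, Me (yv S φ j z x) (A z *ᵥ yv S φ j' z x) e *
        Ti S i (fun _ x => φ x e.1 * φ x e.2 / √(2 * (N : ℝ))) z x +
      ∑ e, Me (yv S φ j z x) (A z *ᵥ yv S φ j' z x) e * Ti S i (B e) z x := by
    funext z x
    rw [mul_sum, ← sum_add_distrib]
    refine sum_congr rfl fun e _ => ?_
    rw [hD e, Ti_add hS i (Nh.const_mul c (nP e)) (hC.nB e), Ti_const_mul]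
    ring
  have n1 : Nh (fun z x => ∑ e, Me (yv S φ j z x) (A z *ᵥ yv S φ j' z x) e *
        Ti S i (fun _ x => φ x e.1 * φ x e.2 / √(2 * (N : ℝ))) z x) :=
    Nh.sum _ fun e _ => Nh.mul (nM e) (nh_Ti hS i (nP e))
  have n2 : Nh (fun z x => ∑ e, Me (yv S φ j z x) (A z *ᵥ yv S φ j' z x) e *
        Ti S i (B e) z x) :=
    Nh.sum _ fun e _ => Nh.mul (nM e) (nh_Ti hS i (hC.nB e))
  unfold LL
  rw [e1, hS.Ex_add (Nh.const_mul c n1) n2, Sy.Ex_const_mul, LL_main hC hA.eg]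
  set P := PE S i (fun z x x' => (1 / (N : ℝ) * (yv S φ j z x ⬝ᵥ φ x')) *
      (1 / (N : ℝ) * ((A z *ᵥ yv S φ j' z x) ⬝ᵥ φ x'))) with hP
  set Q := S.Ex (fun z x => ∑ e, Me (yv S φ j z x) (A z *ᵥ yv S φ j' z x) e *
    Ti S i (B e) z x) with hQ
  have h1 := PE_main2 hS hC.N0 hC.norm hA ha2 hi hj hj'
  rw [← hP] at h1
  have hα : 0 ≤ a2 := by
    have h5 : 0 ≤ (N : ℝ) * a2 := by
      refine le_trans ?_ ha2
      rw [← hS.Ex_const 0]
      have n4 : Nh (fun z x => nv (A z *ᵥ φ x) ^ 2) := by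
        simp only [nv_sq]
        exact Nh.sum _ fun a _ => Nh.pow (nhv_phi.mulVec hA.eg a) 2
      exact hS.Ex_mono (Nh.fst (EG.const 0)) n4 fun z x => sq_nonneg _
    exact (mul_nonneg_iff_of_pos_left hN').1 h5
  have h2 : |Q| ≤ N * (√a2 * √(2 * w2)) := by
    refine (sum_cs hS nM hC.nB i).trans ?_
    have h3 : S.Ex (fun z x => ∑ e, Me (yv S φ j z x) (A z *ᵥ yv S φ j' z x) e ^ 2) ≤
        2 * N * a2 := by
      have h7 : S.Ex (fun z x => ∑ e, Me (yv S φ j z x) (A z *ᵥ yv S φ j' z x) e ^ 2) ≤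
          2 * S.Ex (fun z x => nv (A z *ᵥ yv S φ j' z x) ^ 2) := by
        rw [← Sy.Ex_const_mul]
        refine hS.Ex_mono (Nh.sum _ fun e _ => Nh.pow (nM e) 2)
          (Nh.const_mul _ (nh_nv hS hA j')) fun z x => ?_
        refine (sum_Me_sq hC.N0 _ _).trans ?_
        have h5 := nv_yv (φ := φ) hS hC.norm j z x
        calc 2 / (N : ℝ) * (nv (yv S φ j z x) ^ 2 * nv (A z *ᵥ yv S φ j' z x) ^ 2)
            ≤ 2 / (N : ℝ) * (N * nv (A z *ᵥ yv S φ j' z x) ^ 2) := by gcongr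
          _ = 2 * nv (A z *ᵥ yv S φ j' z x) ^ 2 := by field_simp
      have h8 := (Ex_nv_yv (φ := φ) hS hA j').trans ha2
      linarith only [h7, h8]
    have hw : 0 ≤ w2 := by
      have h5 : 0 ≤ (N : ℝ) * w2 := by
        refine le_trans ?_ hw2
        rw [← hS.Ex_const 0]
        exact hS.Ex_mono (Nh.fst (EG.const 0)) (Nh.sum _ fun e _ => Nh.pow (hC.nB e) 2)
          fun z x => sum_nonneg fun e _ => sq_nonneg _
      exact (mul_nonneg_iff_of_pos_left hN').1 h5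
    calc √(S.Ex (fun z x => ∑ e, Me (yv S φ j z x) (A z *ᵥ yv S φ j' z x) e ^ 2)) *
          √(S.Ex (fun z x => ∑ e, B e z x ^ 2))
        ≤ √(2 * N * a2) * √(N * w2) :=
          mul_le_mul (Real.sqrt_le_sqrt h3) (Real.sqrt_le_sqrt hw2) (Real.sqrt_nonneg _)
            (Real.sqrt_nonneg _)
      _ = N * (√a2 * √(2 * w2)) := by
          rw [← Real.sqrt_mul (by (clear * - hN' hα; positivity)), ← Real.sqrt_mul hα,
            show 2 * (N : ℝ) * a2 * (N * w2) = (N : ℝ) ^ 2 * (a2 * (2 * w2)) by ring,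
            Real.sqrt_mul (by positivity), Real.sqrt_sq hN'.le]
  have e2 : 1 / (N : ℝ) * (c * (N * P) + Q) - c * (RR S φ (min i j) * TT S φ A (min i j')) =
      c * (P - RR S φ (min i j) * TT S φ A (min i j')) + 1 / N * Q := by
    field_simp
    ring
  rw [e2]
  refine (abs_add_le _ _).trans ?_
  rw [abs_mul, abs_mul, abs_of_pos (show (0 : ℝ) < 1 / N by positivity)]
  have h5 : 1 / (N : ℝ) * |Q| ≤ √a2 * √(2 * w2) := by
    rw [one_div, inv_mul_le_iff₀ hN']
    exact h2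
  have h6 := mul_le_mul_of_nonneg_left h1 (abs_nonneg c)
  calc |c| * |P - RR S φ (min i j) * TT S φ A (min i j')| + 1 / (N : ℝ) * |Q|
      ≤ |c| * (√(vv S φ (min i j)) * √a2) + √a2 * √(2 * w2) := add_le_add h6 h5
    _ = _ := by ring

end gen

section conc

open Vale.Agent.P157 (spin)
open Vale.Agent.P157.Par (Path Exponents topN lw spinPart)
open Vale.Agent.P146.Sk.Gen (GI gz gl r0 gS gF gOb gIsOpt GD gV)
open Vale.Agent.P146.Pw2

variable {N K : ℕ} {y : ℝ} {m : ℕ → ℝ} {s : ℕ → ℝ}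

/-- the equations of the quadratic forms -/
theorem resid2 {D B : Ix N → (Ix N → ℝ) → (Fin N → Bool) → ℝ} {w a2 w2 : ℝ} (hN : 0 < N)
    (hy : 0 < y) (hy1 : y ≤ 1) {E : (Ix N → ℝ) → (Fin N → Bool) → ℝ} {c c' : ℝ} (hc0 : 0 ≤ c)
    (hc : c ≤ c') (h : GD K m E D (spin (N := N)))
    (hB : ∀ e z x, D e z x = c * (spin x e.1 * spin x e.2 / √(2 * (N : ℝ))) + B e z x)
    (hBe : ∀ e x, EG (fun z => B e z x)) (hBw : ∀ z x, ∑ e, B e z x ^ 2 ≤ N * w)
    (hs : ∀ l ≤ K, 0 ≤ s l) (ha20 : 0 ≤ a2)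
    (hA2 : (gS K m E spin s).Ex (fun z x => nv (ZA N K y z *ᵥ spin x) ^ 2) ≤ N * a2)
    (hB2 : (gS K m E spin s).Ex (fun z x => nv (ZB N K y z *ᵥ spin x) ^ 2) ≤ N * a2)
    (hw2 : (gS K m E spin s).Ex (fun z x => ∑ e, B e (r0 z) x ^ 2) ≤ N * w2) :
    ∃ TA TB : ℝ × (ℕ → ℝ), TB.1 = Tb y (gS K m E spin s) ∧
      Sk.hN K m ((zt N y).re • TA + (zt N y).im • TB - (1, fun l => (gS K m E spin s).Rl spin l) -
        c • hm K m (1, fun l => (gS K m E spin s).Rl spin l) TA) ≤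
        18 * (√a2 * (c' * √(Vd m (gS K m E spin s)) + √(2 * w2))) + 2 * (8 / (N * y ^ 4)) ∧
      Sk.hN K m ((zt N y).im • TA - (zt N y).re • TB +
        c • hm K m (1, fun l => (gS K m E spin s).Rl spin l) TB) ≤
        18 * (√a2 * (c' * √(Vd m (gS K m E spin s)) + √(2 * w2))) + 2 * (8 / (N * y ^ 4)) ∧
      TA = TQ (gS K m E spin s) (ZA N K y) ∧ TB = TQ (gS K m E spin s) (ZB N K y) := by
  have hN' : (0 : ℝ) < N := by exact_mod_cast hN
  have hy0 : (0 : ℝ) ≤ 1 / y := by positivity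
  have hm' := h.hm
  obtain ⟨hP, hP1⟩ := path_q h hs
  have oA : ∀ g : Ix N → ℝ, OpB (Ay y (Wm N g)) (1 / y) := fun g => Ay_opB (Wm_transpose g) hy
  have oB : ∀ g : Ix N → ℝ, OpB (By y (Wm N g)) (1 / y) := fun g => By_opB (Wm_transpose g) hy
  have hC := ctx_q (s := s) hN h hB hBe hBw
  have hRegg : (gS K m E spin s).Reg := Gen.gS_reg h s
  have hsa : √((gS K m E spin s).Ex fun _ _ => √a2 ^ 2) = √a2 := by
    rw [hRegg.Ex_const, Real.sqrt_sq (Real.sqrt_nonneg _)]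
  have her : ∀ k, Rec.er (gS K m E spin s) spin c (fun _ => √a2) (fun _ => w2) k =
      √a2 * (|c| * √(Rec.vv (gS K m E spin s) spin k) + √(2 * w2)) := by
    intro k
    unfold Rec.er
    rw [hsa, hRegg.Ex_const]
  have lA := lmat_Z0 (K := K) (m := m) (E := E) (s := s) hy0 (egm_ay (N := N) hy)
    (fun g => ay_symm hy (Wm_transpose g)) oA
  have lB := lmat_Z0 (K := K) (m := m) (E := E) (s := s) hy0 (egm_by (N := N) hy)
    (fun g => by_symm (Wm_transpose g)) oB
  set G : ℝ := 2 * (3 / (N * y ^ 2) * (1 / y) + 1 / y * (1 / y) / N) with hG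
  -- the equations
  have hA : ∀ j ≤ K + 1, |2 * Rec.TT (gS K m E spin s) spin (ZA N K y) j +
      y * Rec.TT (gS K m E spin s) spin (ZB N K y) j - Rec.RR (gS K m E spin s) spin j -
      (c * Rec.HH (gS K m E spin s) spin (ZA N K y) j +
      (mA N y * Rec.TT (gS K m E spin s) spin (ZA N K y) j -
        mB N y * Rec.TT (gS K m E spin s) spin (ZB N K y) j))| ≤
      Rec.ej (gS K m E spin s) spin c (fun _ => √a2) (fun _ => w2) j + G := by
    intro j hj
    have h1 : _ ≤ Rec.ej (gS K m E spin s) spin c (fun _ => √a2) (fun _ => w2) j :=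
      exact_idx' (ε := Rec.er (gS K m E spin s) spin c (fun _ => √a2) (fun _ => w2)) hC lA (A' := fun e => Z0 N K (fun g =>
      Ay y (Wm N g) * Em N e * Ay y (Wm N g) - By y (Wm N g) * Em N e * By y (Wm N g)))
      (fun e => pdm_Z0 (pdm_ay hy e))
      (fun e => egm_Z0 ((((egm_ay hy).mul (EGM.const _)).mul (egm_ay hy)).sub
        (((egm_by hy).mul (EGM.const _)).mul (egm_by hy))))
      (Rec.er_nonneg _ _ _) (Rec.er_top_le _ _ _) (fun i j j' hi hj hj' => by
        rw [her]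
        exact LL_le2 hC lA hA2 hw2 hi hj hj') hj
    have h2 := goe_A (s := s) h hy j
    have h3 := lhs_A (s := s) h hy j
    rw [h3] at h1
    have h4 : (gS K m E spin s).Ex (fun z x => ∑ e, Me (Rec.yv (gS K m E spin s) spin j z x)
        (Z0 N K (fun g => Ay y (Wm N g) * Em N e * Ay y (Wm N g) -
          By y (Wm N g) * Em N e * By y (Wm N g)) z *ᵥ
          Rec.yv (gS K m E spin s) spin j z x) e) = (gS K m E spin s).Ex (fun z x => ∑ e,
        Me (Rec.yv (gS K m E spin s) spin j z x)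
        ((ZA N K y z * Em N e * ZA N K y z - ZB N K y z * Em N e * ZB N K y z) *ᵥ
          Rec.yv (gS K m E spin s) spin j z x) e) := rfl
    rw [h4] at h1
    rw [← hG] at h2
    rw [abs_le] at h1 h2 ⊢
    constructor
    · linarith only [h2.1, h1.1]
    · linarith only [h2.2, h1.2]
  have hB' : ∀ j ≤ K + 1, |2 * Rec.TT (gS K m E spin s) spin (ZB N K y) j -
      y * Rec.TT (gS K m E spin s) spin (ZA N K y) j -
      (c * Rec.HH (gS K m E spin s) spin (ZB N K y) j +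
      (mA N y * Rec.TT (gS K m E spin s) spin (ZB N K y) j +
        mB N y * Rec.TT (gS K m E spin s) spin (ZA N K y) j))| ≤
      Rec.ej (gS K m E spin s) spin c (fun _ => √a2) (fun _ => w2) j + G := by
    intro j hj
    have h1 : _ ≤ Rec.ej (gS K m E spin s) spin c (fun _ => √a2) (fun _ => w2) j :=
      exact_idx' (ε := Rec.er (gS K m E spin s) spin c (fun _ => √a2) (fun _ => w2)) hC lB (A' := fun e => Z0 N K (fun g =>
      Ay y (Wm N g) * Em N e * By y (Wm N g) + By y (Wm N g) * Em N e * Ay y (Wm N g)))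
      (fun e => pdm_Z0 (pdm_by hy e))
      (fun e => egm_Z0 ((((egm_ay hy).mul (EGM.const _)).mul (egm_by hy)).add
        (((egm_by hy).mul (EGM.const _)).mul (egm_ay hy))))
      (Rec.er_nonneg _ _ _) (Rec.er_top_le _ _ _) (fun i j j' hi hj hj' => by
        rw [her]
        exact LL_le2 hC lB hB2 hw2 hi hj hj') hj
    have h2 := goe_B (s := s) h hy j
    have h3 := lhs_B (s := s) h hy j
    rw [h3] at h1
    have h4 : (gS K m E spin s).Ex (fun z x => ∑ e, Me (Rec.yv (gS K m E spin s) spin j z x)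
        (Z0 N K (fun g => Ay y (Wm N g) * Em N e * By y (Wm N g) +
          By y (Wm N g) * Em N e * Ay y (Wm N g)) z *ᵥ
          Rec.yv (gS K m E spin s) spin j z x) e) = (gS K m E spin s).Ex (fun z x => ∑ e,
        Me (Rec.yv (gS K m E spin s) spin j z x)
        ((ZA N K y z * Em N e * ZB N K y z + ZB N K y z * Em N e * ZA N K y z) *ᵥ
          Rec.yv (gS K m E spin s) spin j z x) e) := rfl
    rw [h4] at h1
    rw [← hG] at h2
    rw [abs_le] at h1 h2 ⊢
    constructor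
    · linarith only [h2.1, h1.1]
    · linarith only [h2.2, h1.2]
  -- the norms
  set R : ℕ → ℝ := fun l => (gS K m E spin s).Rl spin l with hR
  set TA : ℝ × (ℕ → ℝ) := TQ (gS K m E spin s) (ZA N K y) with hTA
  set TB : ℝ × (ℕ → ℝ) := TQ (gS K m E spin s) (ZB N K y) with hTB
  set F : ℕ → ℝ := fun l => Rec.er (gS K m E spin s) spin c (fun _ => √a2) (fun _ => w2) l
    with hF
  have hej : ∀ j, Rec.ej (gS K m E spin s) spin c (fun _ => √a2) (fun _ => w2) j =
      7 * F j + 2 * ∑ l ∈ Finset.range (K + 1), (m (l + 1) - m l) * F l := fun j => rfl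
  have hp : ∀ l ∈ Finset.range (K + 1), 0 ≤ m (l + 1) - m l := fun l hl => by
    have := hm'.2.2 l (Nat.lt_succ_iff.1 (Finset.mem_range.1 hl))
    linarith
  have hp1 : ∑ l ∈ Finset.range (K + 1), (m (l + 1) - m l) = 1 := by
    rw [Finset.sum_range_sub, hm'.1, hm'.2.1, sub_zero]
  have htop : F (K + 1) ≤ ∑ l ∈ Finset.range (K + 1), (m (l + 1) - m l) * F l := by
    have : F (K + 1) = ∑ l ∈ Finset.range (K + 1), (m (l + 1) - m l) * F (K + 1) := by
      rw [← Finset.sum_mul, hp1, one_mul]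
    rw [this]
    exact Finset.sum_le_sum fun l hl => mul_le_mul_of_nonneg_left
      (Rec.er_top_le (S := gS K m E spin s) (φ := spin) _ _ _ l) (hp l hl)
  have hRR : Rec.RR (gS K m E spin s) spin (K + 1) = 1 := Rec.RR_top _ _
  have hRl : ∀ l ≤ K, Rec.RR (gS K m E spin s) spin l = R l := fun l hl => RR_lev _ hl
  have eA : Sk.hN K m ((zt N y).re • TA + (zt N y).im • TB - (1, R) - c • hm K m (1, R) TA) ≤
      18 * (∑ l ∈ Finset.range (K + 1), (m (l + 1) - m l) * F l) + 2 * G := by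
    refine hN_le_of hm' htop ?_ ?_
    · have h1 := hA (K + 1) le_rfl
      rw [hej, hRR, HH_top] at h1
      refine le_trans (le_of_eq ?_) h1
      congr 1
      show (2 - mA N y) * Rec.TT (gS K m E spin s) spin (ZA N K y) (K + 1) +
        (y + mB N y) * Rec.TT (gS K m E spin s) spin (ZB N K y) (K + 1) - 1 -
        c * (hm K m (1, R) TA).1 = _
      rw [← hTA]
      ring
    · intro l hl
      have h1 := hA l (by omega)
      rw [hej, hRl l hl, HH_lev _ hl] at h1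
      refine le_trans (le_of_eq ?_) h1
      congr 1
      show (2 - mA N y) * Rec.TT (gS K m E spin s) spin (ZA N K y) l +
        (y + mB N y) * Rec.TT (gS K m E spin s) spin (ZB N K y) l - R l -
        c * (hm K m (1, R) TA).2 l = _
      rw [← hTA]
      ring
  have eB : Sk.hN K m ((zt N y).im • TA - (zt N y).re • TB + c • hm K m (1, R) TB) ≤
      18 * (∑ l ∈ Finset.range (K + 1), (m (l + 1) - m l) * F l) + 2 * G := by
    refine hN_le_of hm' htop ?_ ?_
    · have h1 := hB' (K + 1) le_rfl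
      rw [hej, HH_top] at h1
      refine le_trans (le_of_eq ?_) h1
      rw [← abs_neg]
      congr 1
      show -((y + mB N y) * Rec.TT (gS K m E spin s) spin (ZA N K y) (K + 1) -
        (2 - mA N y) * Rec.TT (gS K m E spin s) spin (ZB N K y) (K + 1) +
        c * (hm K m (1, R) TB).1) = _
      rw [← hTB]
      ring
    · intro l hl
      have h1 := hB' l (by omega)
      rw [hej, HH_lev _ hl] at h1
      refine le_trans (le_of_eq ?_) h1
      rw [← abs_neg]
      congr 1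
      show -((y + mB N y) * Rec.TT (gS K m E spin s) spin (ZA N K y) l -
        (2 - mA N y) * Rec.TT (gS K m E spin s) spin (ZB N K y) l +
        c * (hm K m (1, R) TB).2 l) = _
      rw [← hTB]
      ring
  have e1 : TB.1 = Tb y (gS K m E spin s) := by
    show Rec.TT (gS K m E spin s) spin (ZB N K y) (K + 1) = _
    unfold Rec.TT Tb
    congr 2
    funext z x
    rw [Rec.yv_gt (by show K < K + 1; omega), qf_eq_dot _ (by_symm (Wm_transpose _))]
    rfl
  have h2 := sum_er_le (s := s) (c := c) (c' := c') (w := w2) (A₀ := √a2) h (Real.sqrt_nonneg _)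
    (by rw [abs_of_nonneg hc0]; exact hc)
  have h3 : G ≤ 8 / (N * y ^ 4) := by
    rw [hG]
    have h4 : 2 * (3 / (N * y ^ 2) * (1 / y) + 1 / y * (1 / y) / N) =
        (6 * y + 2 * y ^ 2) / (N * y ^ 4) := by
      field_simp
      ring
    rw [h4]
    refine div_le_div_of_nonneg_right ?_ (by positivity)
    nlinarith only [hy, hy1]
  exact ⟨TA, TB, e1, eA.trans (by linarith only [h3, h2]), eB.trans (by linarith only [h3, h2]),
    rfl, rfl⟩


/-- the images of a vector under the real and the imaginary part -/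
lemma nv_le_qf (hy : 0 < y) {W : Matrix (Fin N) (Fin N) ℝ} (hW : Wᵀ = W) (x : Fin N → ℝ) :
    nv (Ay y W *ᵥ x) ^ 2 ≤ 1 / y * qf (By y W) x ∧ nv (By y W *ᵥ x) ^ 2 ≤ 1 / y * qf (By y W) x := by
  rw [qf_by, dot_Hy hW hy]
  have h2 : 1 / y * (y * (nv (Ay y W *ᵥ x) ^ 2 + nv (By y W *ᵥ x) ^ 2)) =
      nv (Ay y W *ᵥ x) ^ 2 + nv (By y W *ᵥ x) ^ 2 := by field_simp
  rw [h2]
  exact ⟨by linarith only [sq_nonneg (nv (By y W *ᵥ x))],
    by linarith only [sq_nonneg (nv (Ay y W *ᵥ x))]⟩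

/-- the squares of the derivatives of the perturbation -/
lemma sum_Bq_sq2 (hN : 0 < N) (hy : 0 < y) (β b : ℝ) (g : Ix N → ℝ) (x : Fin N → Bool) :
    ∑ e, Gd.Bq N β y b e g x ^ 2 ≤ 2 * β ^ 2 * b ^ 2 / y ^ 3 * qf (By y (Wm N g)) (spin x) := by
  have hN' : (0 : ℝ) < N := by exact_mod_cast hN
  have h1 : ∀ e, Gd.Bq N β y b e g x ^ 2 = β ^ 2 * b ^ 2 *
      Me (Ay y (Wm N g) *ᵥ spin x) (By y (Wm N g) *ᵥ spin x) e ^ 2 := by
    intro e
    unfold Gd.Bq
    ring
  simp only [h1, ← Finset.mul_sum]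
  have h2 := sum_Me_sq hN (Ay y (Wm N g) *ᵥ spin x) (By y (Wm N g) *ᵥ spin x)
  have hs : nv (spin x) ^ 2 = (N : ℝ) := by rw [nv_sq, sum_spin_sq]
  have h3 : nv (Ay y (Wm N g) *ᵥ spin x) ^ 2 ≤ N / y ^ 2 := by
    have h := pow_le_pow_left₀ (nv_nonneg _) (opB_ay hy (Wm_transpose g) (spin x)) 2
    rw [mul_pow, hs] at h
    refine h.trans (le_of_eq ?_)
    field_simp
  have h4 := (nv_le_qf hy (Wm_transpose g) (spin x)).2
  have h5 := qf_by_nonneg hy (Wm_transpose g) (spin x)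
  calc β ^ 2 * b ^ 2 * ∑ e : Ix N,
        Me (Ay y (Wm N g) *ᵥ spin x) (By y (Wm N g) *ᵥ spin x) e ^ 2
      ≤ β ^ 2 * b ^ 2 * (2 / N * ((N / y ^ 2) * (1 / y * qf (By y (Wm N g)) (spin x)))) := by
        refine mul_le_mul_of_nonneg_left (h2.trans ?_) (by positivity)
        refine mul_le_mul_of_nonneg_left ?_ (by positivity)
        exact mul_le_mul h3 h4 (sq_nonneg _) (by positivity)
    _ = _ := by
        field_simp

/-- **The equations of the quadratic forms**, with the form itself in the error. -/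
theorem resid_J {β a b : ℝ} (hβ : 0 ≤ β) (hN : 0 < N) (hm' : Exponents K m) (hy : 0 < y)
    (hy1 : y ≤ 1) (ha : a ∈ Set.Icc (0 : ℝ) 1) (hb : 0 ≤ b) (hs : ∀ l ≤ K, 0 ≤ s l) :
    ∃ TA TB : ℝ × (ℕ → ℝ), TB.1 = Tb y (sy N K m β y a b s) ∧
      Sk.hN K m ((zt N y).re • TA + (zt N y).im • TB -
        (1, fun l => (sy N K m β y a b s).Rl spin l) -
        (β * a) • hm K m (1, fun l => (sy N K m β y a b s).Rl spin l) TA) ≤
        18 * (β * √(Tb y (sy N K m β y a b s) / y * Vd m (sy N K m β y a b s)) +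
          2 * β * b * (Tb y (sy N K m β y a b s) / y ^ 2)) + 16 / (N * y ^ 4) ∧
      Sk.hN K m ((zt N y).im • TA - (zt N y).re • TB +
        (β * a) • hm K m (1, fun l => (sy N K m β y a b s).Rl spin l) TB) ≤
        18 * (β * √(Tb y (sy N K m β y a b s) / y * Vd m (sy N K m β y a b s)) +
          2 * β * b * (Tb y (sy N K m β y a b s) / y ^ 2)) + 16 / (N * y ^ 4) ∧
      TA = TQ (sy N K m β y a b s) (ZA N K y) ∧ TB = TQ (sy N K m β y a b s) (ZB N K y) := by
  have hN' : (0 : ℝ) < N := by exact_mod_cast hN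
  have h := Gd.gd_Dq (K := K) hN hy hm' β a b
  have hReg : (sy N K m β y a b s).Reg := Gen.gS_reg h s
  have hJ0 : 0 ≤ Tb y (sy N K m β y a b s) := (tb_bounds β hy hN hm' a b s).1
  have hc0 : 0 ≤ β * a := mul_nonneg hβ ha.1
  have hc : β * a ≤ β := mul_le_of_le_one_right hβ ha.2
  obtain ⟨J, hJ⟩ : ∃ J : ℝ, J = Tb y (sy N K m β y a b s) := ⟨_, rfl⟩
  have hJe : (sy N K m β y a b s).Ex (fun z x => qf (By y (Wm N (r0 z))) (spin x)) = N * J := by
    rw [hJ]
    unfold Tb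
    field_simp
  rw [← hJ] at hJ0
  have nq := Gd.nh_qf (K := K) (egm_by (N := N) hy)
  have nA : Nh (fun (z : GI (Ix N) N K → ℝ) (x : Fin N → Bool) =>
      nv (ZA N K y z *ᵥ spin x) ^ 2) := by
    simp only [nv_sq]
    exact Nh.sum _ fun i _ => Nh.pow (nhv_phi.mulVec (egm_Z0 (egm_ay hy)) i) 2
  have nB : Nh (fun (z : GI (Ix N) N K → ℝ) (x : Fin N → Bool) =>
      nv (ZB N K y z *ᵥ spin x) ^ 2) := by
    simp only [nv_sq]
    exact Nh.sum _ fun i _ => Nh.pow (nhv_phi.mulVec (egm_Z0 (egm_by hy)) i) 2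
  have hA2 : (sy N K m β y a b s).Ex (fun z x => nv (ZA N K y z *ᵥ spin x) ^ 2) ≤
      N * (J / y) := by
    refine (hReg.Ex_mono nA (Nh.const_mul (1 / y) nq) fun z x =>
      (nv_le_qf hy (Wm_transpose (r0 z)) (spin x)).1).trans (le_of_eq ?_)
    rw [Sy.Ex_const_mul, hJe]
    ring
  have hB2 : (sy N K m β y a b s).Ex (fun z x => nv (ZB N K y z *ᵥ spin x) ^ 2) ≤
      N * (J / y) := by
    refine (hReg.Ex_mono nB (Nh.const_mul (1 / y) nq) fun z x =>
      (nv_le_qf hy (Wm_transpose (r0 z)) (spin x)).2).trans (le_of_eq ?_)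
    rw [Sy.Ex_const_mul, hJe]
    ring
  have hBe : ∀ (e : Ix N) (x : Fin N → Bool), EG (fun z => Gd.Bq N β y b e z x) := fun e x =>
    EG.of_bdd (Gd.measurable_Bq hy β b e x) fun g => Gd.abs_Bq_le hN hy β b e g x
  have hw2 : (sy N K m β y a b s).Ex (fun z x => ∑ e, Gd.Bq N β y b e (r0 z) x ^ 2) ≤
      N * (2 * β ^ 2 * b ^ 2 / y ^ 3 * J) := by
    refine (hReg.Ex_mono (Nh.sum _ fun e _ => Nh.pow (fun x => Gen.EG.r0 (hBe e x)) 2)
      (Nh.const_mul (2 * β ^ 2 * b ^ 2 / y ^ 3) nq) fun z x =>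
      sum_Bq_sq2 hN hy β b (r0 z) x).trans (le_of_eq ?_)
    rw [Sy.Ex_const_mul, hJe]
    ring
  obtain ⟨TA, TB, e1, e2, e3, e4, e5⟩ := resid2 (s := s) (K := K) (m := m) (a2 := J / y)
    (w2 := 2 * β ^ 2 * b ^ 2 / y ^ 3 * J) hN hy hy1 hc0 hc h (fun e z x => rfl) hBe
    (fun z x => Gd.sum_Bq_sq hN hy β b z x) hs (by positivity) hA2 hB2 hw2
  have hV0 : 0 ≤ Vd m (sy N K m β y a b s) := by
    unfold Vd
    refine Finset.sum_nonneg fun l hl => mul_nonneg ?_ ?_
    · exact (sub_pos.2 (hm'.2.2 l (Nat.lt_succ_iff.1 (Finset.mem_range.1 hl)))).le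
    · have hl' : l ≤ K := Nat.lt_succ_iff.1 (Finset.mem_range.1 hl)
      exact hReg.pairEx_nonneg (l := l) hl' fun x x' => sq_nonneg _
  have herr : 18 * (√(J / y) * (β * √(Vd m (sy N K m β y a b s)) +
      √(2 * (2 * β ^ 2 * b ^ 2 / y ^ 3 * J)))) + 2 * (8 / (N * y ^ 4)) =
      18 * (β * √(J / y * Vd m (sy N K m β y a b s)) + 2 * β * b * (J / y ^ 2)) +
        16 / (N * y ^ 4) := by
    have h1 : √(J / y) * √(Vd m (sy N K m β y a b s)) =
        √(J / y * Vd m (sy N K m β y a b s)) := by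
      rw [Real.sqrt_mul (by positivity)]
    have h2 : √(J / y) * √(2 * (2 * β ^ 2 * b ^ 2 / y ^ 3 * J)) = 2 * β * b * (J / y ^ 2) := by
      rw [← Real.sqrt_mul (by positivity)]
      rw [show J / y * (2 * (2 * β ^ 2 * b ^ 2 / y ^ 3 * J)) = (2 * β * b * (J / y ^ 2)) ^ 2 by
        field_simp]
      rw [Real.sqrt_sq (by positivity)]
    have h3 : √(J / y) * (β * √(Vd m (sy N K m β y a b s)) +
      √(2 * (2 * β ^ 2 * b ^ 2 / y ^ 3 * J))) = β * (√(J / y) * √(Vd m (sy N K m β y a b s))) +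
      √(J / y) * √(2 * (2 * β ^ 2 * b ^ 2 / y ^ 3 * J)) := by ring
    rw [h3, h1, h2]
    ring
  rw [← hJ]
  exact ⟨TA, TB, e1.trans hJ.symm, e2.trans herr.le, e3.trans herr.le, e4, e5⟩

/-- **The value of `T_b`**, with the form itself in the error. -/
theorem val_b2 {β a b κ : ℝ} (hβ : 0 ≤ β) (hN : 0 < N) (hm' : Exponents K m) (hy : 0 < y)
    (hy1 : y ≤ 1) (ha : a ∈ Set.Icc (0 : ℝ) 1) (hb : 0 ≤ b) (hs : ∀ l ≤ K, 0 ≤ s l)
    (hκ : 0 < κ) (hκ1 : κ ≤ 1)
    (hζ : β * a * Sk.chi K m (fun l => (sy N K m β y a b s).Rl spin l) + κ ≤ ‖zt N y‖) :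
    |Tb y (sy N K m β y a b s) -
      PHI (zt N y) (β * a) K m (fun l => (sy N K m β y a b s).Rl spin l)| ≤
      8 * (1 + β) / κ ^ 2 *
        (18 * (β * √(Tb y (sy N K m β y a b s) / y * Vd m (sy N K m β y a b s)) +
          2 * β * b * (Tb y (sy N K m β y a b s) / y ^ 2)) + 16 / (N * y ^ 4)) := by
  have hN' : (0 : ℝ) < N := by exact_mod_cast hN
  obtain ⟨TA, TB, e1, e2, e3, -, -⟩ := resid_J (s := s) hβ hN hm' hy hy1 ha hb hs
  have hi : 0 < (zt N y).im := by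
    have := mB_nonneg (N := N) hy
    show 0 < y + mB N y
    linarith
  have hc0 : 0 ≤ β * a := mul_nonneg hβ ha.1
  have hc : β * a ≤ β := mul_le_of_le_one_right hβ ha.2
  have h := Gd.gd_Dq (K := K) hN hy hm' β a b
  obtain ⟨hP, hP1⟩ := path_q h hs
  have h1 := hres hm' hP hP1 hc0 hκ hκ1 hi hζ e2 e3
  rw [e1] at h1
  refine h1.trans ?_
  have hE : 0 ≤ 18 * (β * √(Tb y (sy N K m β y a b s) / y * Vd m (sy N K m β y a b s)) +
          2 * β * b * (Tb y (sy N K m β y a b s) / y ^ 2)) + 16 / (N * y ^ 4) :=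
    (hN_nonneg hm' _).trans e2
  refine mul_le_mul_of_nonneg_right ?_ hE
  refine div_le_div_of_nonneg_right ?_ (by positivity)
  linarith only [hc]

end conc

end Vale.Agent.P146.R3.H729.Val2
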