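import Vale.Agent.P146.R3.H729.TbLow
import Vale.Agent.P146.R3.H729.Val2

set_option linter.all false

/-!
# P146, explicit lower exponent: the quadratic form of the resolvent is large, sharper hypotheses
-/

open MeasureTheory ProbabilityTheory Matrix Filter Topology

namespace Vale.Agent.P146.R3.H729.TbLow2

open Vale.Agent.P157 (spin)
open Vale.Agent.P157.Lv
open Vale.Agent.P157.Par (Path Exponents topN lw spinPart)
open Vale.Agent.P146.Sk
open Vale.Agent.P166.F (Lam)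
open Vale.Agent.P146.Sk.Gen (GI gz gl r0 gS gF gOb gIsOpt GD gV)
open Vale.Agent.P146.Pw2
open Vale.Agent.P146.R3.H729.TbLow Vale.Agent.P146.R3.H729.Val2

/-- **The quadratic form of the resolvent is large.** -/
theorem tb_low2 {β : ℝ} (hβ : 0 < β) (C0 : ℝ) (hC0 : 1 ≤ C0) : ∃ C : ℝ, 1 ≤ C ∧
    ∀ (N K : ℕ) (m q : ℕ → ℝ) (t a b : ℝ) (s : ℕ → ℝ), 0 < N → Exponents K m → Path K q →
      q K ≤ 1 → 0 < t → t ≤ 1 / C → C ≤ N * t ^ 24 →
      (∀ u ∈ Set.Icc (0 : ℝ) 1, 1 - C0 * u ^ 2 - t ^ 3 ≤ β * Vale.Agent.P166.F.Lam K m q u ∧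
        β * Vale.Agent.P166.F.Lam K m q u ≤ 1 + t ^ 3) →
      a ∈ Set.Icc (0 : ℝ) 1 → 1 - t ^ 3 ≤ a → b ∈ Set.Icc (0 : ℝ) 1 → C * b ≤ t ^ 12 →
      (∀ l ≤ K, 0 ≤ s l) → Qd K m q (sy N K m β (t ^ 4) a b s) ≤ t ^ 9 / C ^ 2 →
      1 / (C * t ^ 3) ≤ Tb (t ^ 4) (sy N K m β (t ^ 4) a b s) := by
  obtain ⟨Cv, hCvd⟩ : ∃ Cv : ℝ, Cv = 8 * (1 + β) * (54 * β + 16) + 1 := ⟨_, rfl⟩
  have hCv1 : 1 ≤ Cv := by rw [hCvd]; linarith only [hβ, mul_nonneg hβ.le hβ.le]
  obtain ⟨Cz, hCz1, hz⟩ := zeta_facts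
  obtain ⟨C, hC⟩ : ∃ C : ℝ, C = 64 + 64 * β + Cz + Cv + (48 * Cv + 1) * (10 ^ 6 * C0) := ⟨_, rfl⟩
  have p1 : 0 ≤ (48 * Cv + 1) * (10 ^ 6 * C0) := by positivity
  have c64 : 64 ≤ C := by rw [hC]; linarith only [p1, hβ, hCz1, hCv1]
  have cβ : 64 * β ≤ C := by rw [hC]; linarith only [p1, hβ, hCz1, hCv1]
  have cz : Cz ≤ C := by rw [hC]; linarith only [p1, hβ, hCz1, hCv1]
  have cv : Cv ≤ C := by rw [hC]; linarith only [p1, hβ, hCz1, hCv1]
  have cb : (48 * Cv + 1) * (10 ^ 6 * C0) ≤ C := by rw [hC]; linarith only [p1, hβ, hCz1, hCv1]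
  clear hC
  have hC0' : 0 < C := by linarith only [c64]
  refine ⟨C, by linarith only [c64], ?_⟩
  intro N K m q t a b s hN hm hq hq1 ht htC hNt hcon ha hat hb hbt hs hQ
  have hN' : (0 : ℝ) < N := by exact_mod_cast hN
  have ht64 : t ≤ 1 / 64 := htC.trans (one_div_le_one_div_of_le (by norm_num) c64)
  have ht1 : t ≤ 1 := ht64.trans (by norm_num)
  have hsq : √(t ^ 4) = t ^ 2 := by
    rw [show t ^ 4 = (t ^ 2) ^ 2 by ring, Real.sqrt_sq (by positivity)]
  have hy0 : 0 < t ^ 4 := by positivity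
  have hyt : t ^ 4 ≤ t := by
    calc t ^ 4 ≤ t ^ 1 := pow_le_pow_of_le_one ht.le ht1 (by norm_num)
      _ = t := pow_one t
  have hyc : ∀ c : ℝ, 1 ≤ c → c ≤ C → t ^ 4 ≤ 1 / c := fun c h1 h2 =>
    (hyt.trans htC).trans (one_div_le_one_div_of_le (by linarith only [h1]) h2)
  have hN6 : C ≤ N * (t ^ 4) ^ 6 := by
    rw [← pow_mul]
    exact hNt
  obtain ⟨-, -, -, -, -, -, z1, z2, z3, z4⟩ := hz N (t ^ 4) hN hy0 (hyc Cz hCz1 cz)
    (cz.trans hN6)
  rw [hsq] at z1 z2 z3 z4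
  obtain ⟨D, B, h, hB, hBe, hBw⟩ := gdq (K := K) β hy0 hN hm a b
  have F := Gen.gS_fld h hs
  have hRp : Path K (fun l => (sy N K m β (t ^ 4) a b s).Rl spin l) := om_path h hs
  have hRK : (fun l => (sy N K m β (t ^ 4) a b s).Rl spin l) K ≤ 1 := F.Rl_le_one le_rfl
  have hqd := qd_eq h hs q
  obtain ⟨R, hR⟩ : ∃ R : ℕ → ℝ, R = fun l => (sy N K m β (t ^ 4) a b s).Rl spin l := ⟨_, rfl⟩
  rw [← hR] at hRp hRK
  have hVd0 : 0 ≤ Vd m (sy N K m β (t ^ 4) a b s) := by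
    unfold Vd
    refine Finset.sum_nonneg fun l hl => mul_nonneg ?_ ?_
    · exact (sub_pos.2 (hm.2.2 l (Nat.lt_succ_iff.1 (Finset.mem_range.1 hl)))).le
    · have hl' : l ≤ K := Nat.lt_succ_iff.1 (Finset.mem_range.1 hl)
      exact F.hreg.pairEx_nonneg (l := l) hl' fun x x' => sq_nonneg _
  obtain ⟨M2, hM2⟩ : ∃ M2 : ℝ, M2 = ∑ l ∈ Finset.range (K + 1), (m (l + 1) - m l) *
      (R l - q l) ^ 2 := ⟨_, rfl⟩
  have hqd' : Qd K m q (sy N K m β (t ^ 4) a b s) = Vd m (sy N K m β (t ^ 4) a b s) + M2 := by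
    rw [hM2, hR]
    exact hqd
  have hM20 : 0 ≤ M2 := by
    rw [hM2]
    refine Finset.sum_nonneg fun l hl => mul_nonneg ?_ (sq_nonneg _)
    exact (sub_pos.2 (hm.2.2 l (Nat.lt_succ_iff.1 (Finset.mem_range.1 hl)))).le
  have hd0 : 0 ≤ t ^ 3 / C := by positivity
  have hQ' : t ^ 9 / C ^ 2 ≤ (t ^ 3 / C) ^ 2 := by
    rw [div_pow, ← pow_mul]
    refine div_le_div_of_nonneg_right ?_ (by positivity)
    exact pow_le_pow_of_le_one ht.le ht1 (by norm_num)
  have hV : Vd m (sy N K m β (t ^ 4) a b s) ≤ t ^ 9 / C ^ 2 := by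
    linarith only [hQ, hqd', hM20]
  have hM : √M2 ≤ t ^ 3 / C := by
    rw [← Real.sqrt_sq hd0]
    exact Real.sqrt_le_sqrt (by linarith only [hQ, hQ', hqd', hVd0])
  have hLam : ∀ u : ℝ, |Vale.Agent.P166.F.Lam K m R u - Vale.Agent.P166.F.Lam K m q u| ≤
      t ^ 3 / C := fun u => (lam_sub_le hm q R u).trans
        ((wabs_le hm fun l => R l - q l).trans (by rw [← hM2]; exact hM))
  -- small quantities
  have s1 : β * (t ^ 3 / C) ≤ t ^ 2 / 64 := by
    have e1 : β * (t ^ 3 / C) = β / C * t ^ 3 := by ring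
    have e2 : β / C ≤ 1 / 64 := by
      rw [div_le_div_iff₀ hC0' (by norm_num)]
      linarith only [cβ]
    have e3 : t ^ 3 ≤ t ^ 2 := pow_le_pow_of_le_one ht.le ht1 (by norm_num)
    rw [e1]
    calc β / C * t ^ 3 ≤ 1 / 64 * t ^ 2 := mul_le_mul e2 e3 (by positivity) (by norm_num)
      _ = t ^ 2 / 64 := by ring
  have s2 : t ^ 3 ≤ t ^ 2 / 64 := by
    calc t ^ 3 = t ^ 2 * t := by ring
      _ ≤ t ^ 2 * (1 / 64) := mul_le_mul_of_nonneg_left ht64 (by positivity)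
      _ = t ^ 2 / 64 := by ring
  have ha0 : 0 ≤ a := ha.1
  have ha1 : a ≤ 1 := ha.2
  have hβa : 0 ≤ β * a := mul_nonneg hβ.le ha0
  -- the upper bound of the eigenvalue
  have hchi : β * a * Sk.chi K m R ≤ 1 + t ^ 2 / 32 := by
    rw [← lam_zero hRp]
    have e1 := (abs_le.1 (hLam 0)).2
    have e2 := (hcon 0 ⟨le_rfl, zero_le_one⟩).2
    have e3 : β * Vale.Agent.P166.F.Lam K m R 0 ≤
        β * Vale.Agent.P166.F.Lam K m q 0 + β * (t ^ 3 / C) := by
      rw [← mul_add]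
      exact mul_le_mul_of_nonneg_left (by linarith only [e1]) hβ.le
    have e4 : β * Vale.Agent.P166.F.Lam K m R 0 ≤ 1 + t ^ 2 / 32 := by
      linarith only [e3, e2, s1, s2]
    calc β * a * Vale.Agent.P166.F.Lam K m R 0 = a * (β * Vale.Agent.P166.F.Lam K m R 0) := by
          ring
      _ ≤ a * (1 + t ^ 2 / 32) := mul_le_mul_of_nonneg_left e4 ha0
      _ ≤ 1 * (1 + t ^ 2 / 32) := mul_le_mul_of_nonneg_right ha1 (by positivity)
      _ = 1 + t ^ 2 / 32 := one_mul _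
  have hκ : β * a * Sk.chi K m R + t ^ 2 / 4 ≤ ‖zt N (t ^ 4)‖ := by
    refine le_trans ?_ (Complex.re_le_norm _)
    linarith only [hchi, z1, sq_nonneg t]
  by_contra hneg
  have hJ0 := (tb_bounds β hy0 hN hm a b s).1
  have hval := val_b2 (K := K) (s := s) (β := β) (a := a) (b := b) (κ := t ^ 2 / 4) hβ.le hN hm hy0
    (pow_le_one₀ ht.le ht1) ha hb.1 hs (by positivity) (by
      have : t ^ 2 ≤ 1 := pow_le_one₀ ht.le ht1
      linarith only [this]) (by rw [← hR]; exact hκ)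
  rw [← hR] at hval
  obtain ⟨J, hJ⟩ : ∃ J : ℝ, J = Tb (t ^ 4) (sy N K m β (t ^ 4) a b s) := ⟨_, rfl⟩
  rw [← hJ] at hneg hJ0 hval
  have hJC : J ≤ 1 / (C * t ^ 3) := (not_le.1 hneg).le
  obtain ⟨V, hVe⟩ : ∃ V : ℝ, V = Vd m (sy N K m β (t ^ 4) a b s) := ⟨_, rfl⟩
  rw [← hVe] at hV hVd0 hval
  -- the error
  have herr : 8 * (1 + β) / (t ^ 2 / 4) ^ 2 * (18 * (β * √(J / t ^ 4 * V) +
      2 * β * b * (J / (t ^ 4) ^ 2)) + 16 / (N * (t ^ 4) ^ 4)) ≤ 48 * Cv / (C * t ^ 3) := by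
    have e0 : √(J / t ^ 4 * V) ≤ t / C := by
      rw [← Real.sqrt_sq (show 0 ≤ t / C by positivity)]
      refine Real.sqrt_le_sqrt ?_
      have h1 : J / t ^ 4 ≤ 1 / (C * t ^ 3) / t ^ 4 := div_le_div_of_nonneg_right hJC (by positivity)
      calc J / t ^ 4 * V ≤ 1 / (C * t ^ 3) / t ^ 4 * (t ^ 9 / C ^ 2) :=
            mul_le_mul h1 hV hVd0 (by positivity)
        _ = (t / C) ^ 2 * (1 / C) := by
            field_simp
        _ ≤ (t / C) ^ 2 * 1 := mul_le_mul_of_nonneg_left (by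
            rw [div_le_one hC0']
            linarith only [c64]) (by positivity)
        _ = (t / C) ^ 2 := mul_one _
    have e1 : b * (J / (t ^ 4) ^ 2) ≤ t / C := by
      have h1 : b ≤ t ^ 12 / C := by
        rw [le_div_iff₀ hC0']
        linarith only [hbt]
      have h2 : J / (t ^ 4) ^ 2 ≤ 1 / (C * t ^ 3) / (t ^ 4) ^ 2 :=
        div_le_div_of_nonneg_right hJC (by positivity)
      calc b * (J / (t ^ 4) ^ 2) ≤ t ^ 12 / C * (1 / (C * t ^ 3) / (t ^ 4) ^ 2) :=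
            mul_le_mul h1 h2 (by positivity) (by positivity)
        _ = t / C * (1 / C) := by
            field_simp
        _ ≤ t / C * 1 := mul_le_mul_of_nonneg_left (by
            rw [div_le_one hC0']
            linarith only [c64]) (by positivity)
        _ = t / C := mul_one _
    have e2 : 1 / ((N : ℝ) * (t ^ 4) ^ 4) ≤ t / C := by
      rw [div_le_div_iff₀ (by positivity) hC0']
      have h1 : (N : ℝ) * t ^ 24 ≤ t * (N * (t ^ 4) ^ 4) := by
        have h2 : t ^ 24 ≤ t * (t ^ 4) ^ 4 := by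
          calc t ^ 24 ≤ t ^ 17 := pow_le_pow_of_le_one ht.le ht1 (by norm_num)
            _ = t * (t ^ 4) ^ 4 := by ring
        calc (N : ℝ) * t ^ 24 ≤ N * (t * (t ^ 4) ^ 4) := mul_le_mul_of_nonneg_left h2 hN'.le
          _ = t * (N * (t ^ 4) ^ 4) := by ring
      linarith only [h1, hNt]
    have e3 : 18 * (β * √(J / t ^ 4 * V) + 2 * β * b * (J / (t ^ 4) ^ 2)) +
        16 / (N * (t ^ 4) ^ 4) ≤ (54 * β + 16) * (t / C) := by
      have h1 : β * √(J / t ^ 4 * V) ≤ β * (t / C) := mul_le_mul_of_nonneg_left e0 hβ.le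
      have h2 : β * (b * (J / (t ^ 4) ^ 2)) ≤ β * (t / C) := mul_le_mul_of_nonneg_left e1 hβ.le
      have h3 : (16 : ℝ) / (N * (t ^ 4) ^ 4) = 16 * (1 / (N * (t ^ 4) ^ 4)) := by ring
      rw [h3]
      linarith only [h1, h2, e2]
    have e4 : 8 * (1 + β) * (54 * β + 16) ≤ Cv := by rw [hCvd]; linarith
    calc 8 * (1 + β) / (t ^ 2 / 4) ^ 2 * (18 * (β * √(J / t ^ 4 * V) +
          2 * β * b * (J / (t ^ 4) ^ 2)) + 16 / (N * (t ^ 4) ^ 4)) ≤
          8 * (1 + β) / (t ^ 2 / 4) ^ 2 * ((54 * β + 16) * (t / C)) :=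
          mul_le_mul_of_nonneg_left e3 (by positivity)
      _ = 8 * (1 + β) * (54 * β + 16) * (16 / (C * t ^ 3)) := by
          field_simp
          ring
      _ ≤ Cv * (16 / (C * t ^ 3)) := mul_le_mul_of_nonneg_right e4 (by positivity)
      _ ≤ 48 * Cv / (C * t ^ 3) := by
          rw [show 48 * Cv / (C * t ^ 3) = Cv * (48 / (C * t ^ 3)) by ring]
          refine mul_le_mul_of_nonneg_left ?_ (by linarith only [hCv1])
          exact div_le_div_of_nonneg_right (by norm_num) (by positivity)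
  -- the main term
  have hphi := phi_lower (c := β * a) (κ := t ^ 2 / 8) (v := t / (4 * C0)) (ζ := zt N (t ^ 4)) hm
    hRp hRK hβa (by positivity) (by
      have : t ^ 2 ≤ 1 := pow_le_one₀ ht.le ht1
      linarith only [this]) (by linarith only [z1]) (by linarith only [z2])
    (by linarith only [z3]) (by linarith only [z4])
    (by linarith only [hchi, sq_nonneg t]) (by positivity) (by
      rw [div_le_one (by positivity)]
      linarith only [ht1, hC0]) (by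
      intro u hu
      have hu1 : u ≤ 1 := hu.2.trans (by
        rw [div_le_one (by positivity)]
        linarith only [ht1, hC0])
      obtain ⟨e1, e2⟩ := hcon u ⟨hu.1, hu1⟩
      have e3 := (abs_le.1 (hLam u)).1
      have e4 : C0 * u ^ 2 ≤ t ^ 2 / 16 := by
        have h1 : u ^ 2 ≤ (t / (4 * C0)) ^ 2 := pow_le_pow_left₀ hu.1 hu.2 2
        have h2 : C0 * u ^ 2 ≤ C0 * (t / (4 * C0)) ^ 2 :=
          mul_le_mul_of_nonneg_left h1 (by linarith only [hC0])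
        have h3 : C0 * (t / (4 * C0)) ^ 2 = t ^ 2 / 16 * (1 / C0) := by
          field_simp
          ring
        have h4 : 1 / C0 ≤ 1 := by
          rw [div_le_one (by linarith only [hC0])]
          exact hC0
        have h5 : t ^ 2 / 16 * (1 / C0) ≤ t ^ 2 / 16 * 1 :=
          mul_le_mul_of_nonneg_left h4 (by positivity)
        linarith only [h2, h3, h5]
      have e5 : β * Vale.Agent.P166.F.Lam K m q u - β * (t ^ 3 / C) ≤
          β * Vale.Agent.P166.F.Lam K m R u := by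
        rw [← mul_sub]
        exact mul_le_mul_of_nonneg_left (by linarith only [e3]) hβ.le
      obtain ⟨X, hX⟩ : ∃ X : ℝ, X = β * Vale.Agent.P166.F.Lam K m R u := ⟨_, rfl⟩
      rw [← hX] at e5
      have e6 : 1 - t ^ 2 / 16 - t ^ 2 / 32 ≤ X := by linarith only [e5, e1, e4, s1, s2]
      have e7 : β * a * Vale.Agent.P166.F.Lam K m R u = a * X := by
        rw [hX]
        ring
      rw [e7]
      have e8 : a * (1 - t ^ 2 / 16 - t ^ 2 / 32) ≤ a * X := mul_le_mul_of_nonneg_left e6 ha0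
      have e9 : (1 - a) * (1 - t ^ 2 / 16 - t ^ 2 / 32) ≤ (1 - a) * 1 :=
        mul_le_mul_of_nonneg_left (by linarith only [sq_nonneg t]) (by linarith only [ha1])
      linarith only [e8, e9, hat, s2, sq_nonneg t])
  have hmain : 16 / (10 ^ 6 * C0 * t ^ 3) ≤ PHI (zt N (t ^ 4)) (β * a) K m R := by
    refine le_trans (le_of_eq ?_) hphi
    field_simp
    ring
  have hfin : 1 / (C * t ^ 3) ≤ 16 / (10 ^ 6 * C0 * t ^ 3) - 48 * Cv / (C * t ^ 3) := by
    have h1 : (48 * Cv + 1) / (C * t ^ 3) ≤ 1 / (10 ^ 6 * C0 * t ^ 3) := by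
      rw [div_le_div_iff₀ (by positivity) (by positivity)]
      have h2 : (48 * Cv + 1) * (10 ^ 6 * C0) * t ^ 3 ≤ C * t ^ 3 :=
        mul_le_mul_of_nonneg_right cb (by positivity)
      linarith only [h2]
    have h3 : (48 * Cv + 1) / (C * t ^ 3) = 48 * Cv / (C * t ^ 3) + 1 / (C * t ^ 3) := by
      rw [add_div]
    have h4 : (16 : ℝ) / (10 ^ 6 * C0 * t ^ 3) = 16 * (1 / (10 ^ 6 * C0 * t ^ 3)) := by ring
    have h5 : 0 ≤ 1 / (10 ^ 6 * C0 * t ^ 3) := by positivity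
    linarith only [h1, h3, h4, h5]
  have h9 := (abs_le.1 hval).1
  have h10 := not_le.1 hneg
  linarith only [h9, h10, herr, hmain, hfin]

end Vale.Agent.P146.R3.H729.TbLow2
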